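import Vale.Agent.P125.James

open Finset Filter Topology

namespace Vale.Agent.P125

def MT {E : Type*} [AddCommGroup E] (N : E → ℝ) (p C : ℝ) : Prop :=
  ∀ (S : Type) [Fintype S] [DecidableEq S] (π : S → ℝ) (P : Matrix S S ℝ),
    (∀ i, 0 ≤ π i) → ∑ i, π i = 1 →
    (∀ i j, 0 ≤ P i j) → (∀ i, ∑ j, P i j = 1) →
    (∀ i j, π i * P i j = π j * P j i) →
    ∀ (f : S → E) (t : ℕ), 1 ≤ t →
      ∑ i, ∑ j, π i * (P ^ t) i j * N (f j - f i) ^ p
        ≤ C * t * ∑ i, ∑ j, π i * P i j * N (f j - f i) ^ p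

structure Good {E : Type*} [AddCommGroup E] [Module ℝ E] (N : E → ℝ) (p C : ℝ) : Prop where
  add : ∀ x y, N (x + y) ≤ N x + N y
  smul : ∀ (c : ℝ) x, N (c • x) = |c| * N x
  mt : MT N p C

section
variable {E : Type*} [AddCommGroup E] [Module ℝ E] {N : E → ℝ} {p C : ℝ}

lemma Good.zero (h : Good N p C) : N 0 = 0 := by
  have := h.smul 0 0
  simpa using this

lemma Good.neg (h : Good N p C) (x : E) : N (-x) = N x := by
  have := h.smul (-1) x
  simpa using this

lemma Good.nonneg (h : Good N p C) (x : E) : 0 ≤ N x := by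
  have := h.add x (-x)
  rw [add_neg_cancel, h.zero, h.neg] at this
  linarith

lemma Good.sum_le (h : Good N p C) {ι : Type*} (s : Finset ι) (f : ι → E) :
    N (∑ i ∈ s, f i) ≤ ∑ i ∈ s, N (f i) :=
  Finset.le_sum_of_subadditive N h.zero.le h.add s f

lemma Good.comp (h : Good N p C) {E' : Type*} [AddCommGroup E'] [Module ℝ E'] (T : E' →ₗ[ℝ] E) :
    Good (fun x => N (T x)) p C where
  add x y := by rw [map_add]; exact h.add _ _
  smul c x := by rw [map_smul]; exact h.smul _ _
  mt S _ _ π P h1 h2 h3 h4 h5 f t ht := by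
    have := h.mt S π P h1 h2 h3 h4 h5 (fun i => T (f i)) t ht
    simpa only [map_sub] using this

lemma Good.lim (hp : 0 ≤ p) {ι : Type*} (l : Filter ι) [NeBot l] (M : ι → E → ℝ)
    (hM : ∀ i, Good (M i) p C) (hl : ∀ x, Tendsto (fun i => M i x) l (𝓝 (N x))) :
    Good N p C where
  add x y := le_of_tendsto_of_tendsto' (hl (x + y)) ((hl x).add (hl y)) fun i => (hM i).add x y
  smul c x := tendsto_nhds_unique (hl (c • x)) (by
    have := (hl x).const_mul |c|
    convert this using 1
    funext i; exact (hM i).smul c x)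
  mt S _ _ π P h1 h2 h3 h4 h5 f t ht := by
    refine le_of_tendsto_of_tendsto' (b := l)
      (f := fun k => ∑ i, ∑ j, π i * (P ^ t) i j * M k (f j - f i) ^ p)
      (g := fun k => C * t * ∑ i, ∑ j, π i * P i j * M k (f j - f i) ^ p) ?_ ?_
      fun k => (hM k).mt S π P h1 h2 h3 h4 h5 f t ht
    · exact tendsto_finsetSum _ fun i _ => tendsto_finsetSum _ fun j _ =>
        ((hl _).rpow_const (Or.inr hp)).const_mul _
    · exact (tendsto_finsetSum _ fun i _ => tendsto_finsetSum _ fun j _ =>
        ((hl _).rpow_const (Or.inr hp)).const_mul _).const_mul _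

end

abbrev E0 := ℕ →₀ ℝ

noncomputable def lin (w : ℕ → ℝ) : E0 →ₗ[ℝ] ℝ := Finsupp.linearCombination ℝ w

lemma lin_single (w : ℕ → ℝ) (i : ℕ) (a : ℝ) : lin w (Finsupp.single i a) = a * w i := by
  simp [lin]

lemma lin_apply (w : ℕ → ℝ) (c : E0) : lin w c = ∑ i ∈ c.support, c i * w i := by
  simp [lin, Finsupp.linearCombination_apply, Finsupp.sum]

lemma tendsto_lin {ι : Type*} {l : Filter ι} {w : ι → ℕ → ℝ} {h : ℕ → ℝ}
    (hw : ∀ i, Tendsto (fun k => w k i) l (𝓝 (h i))) (c : E0) :
    Tendsto (fun k => lin (w k) c) l (𝓝 (lin h c)) := by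
  simp only [lin_apply]
  exact tendsto_finsetSum _ fun i _ => (hw i).const_mul _

structure Sys1 (N : E0 → ℝ) (g : ℕ → ℕ → ℝ) (p C α β : ℝ) : Prop where
  good : Good N p C
  unit : ∀ i, N (Finsupp.single i 1) ≤ 1
  dom : ∀ j c, |lin (g j) c| ≤ N c
  pat : ∀ i j, (i < j → g j i ≤ α) ∧ (j < i → β ≤ g j i)

theorem exists_sys1 {X : Type*} [NormedAddCommGroup X] [NormedSpace ℝ X] {p C : ℝ} (hp : 0 ≤ p)
    (hX : MT (fun x : X => ‖x‖) p C) (hJ : JamesPattern X) :
    ∃ N g α β, α < β ∧ Sys1 N g p C α β := by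
  obtain ⟨α, β, hαβ, h⟩ := hJ
  choose x φ hx hφ hpat using h
  have hG : Good (fun x : X => ‖x‖) p C :=
    ⟨norm_add_le, fun c x => by rw [norm_smul, Real.norm_eq_abs], hX⟩
  let T : ℕ → E0 →ₗ[ℝ] X := fun m => Finsupp.linearCombination ℝ (x m)
  have hT : ∀ m c, T m c = ∑ i ∈ c.support, c i • x m i := fun m c => by
    simp [T, Finsupp.linearCombination_apply, Finsupp.sum]
  choose N hN using fun c : E0 => exists_ulim UU (fun m => ‖T m c‖) (∑ i ∈ c.support, |c i|)
    (fun m => by
      rw [abs_of_nonneg (norm_nonneg _), hT]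
      refine (norm_sum_le _ _).trans (Finset.sum_le_sum fun i _ => ?_)
      rw [norm_smul, Real.norm_eq_abs]
      nlinarith [hx m i, abs_nonneg (c i)])
  have hφx : ∀ m j (v : X), |φ m j v| ≤ ‖v‖ := fun m j v => by
    have := (φ m j).le_opNorm v
    rw [Real.norm_eq_abs] at this
    nlinarith [hφ m j, norm_nonneg v]
  choose g hg using fun j i => exists_ulim UU (fun m => φ m j (x m i)) 1
    (fun m => (hφx m j _).trans (hx m i))
  refine ⟨N, g, α, β, hαβ, Good.lim hp UU (fun m c => ‖T m c‖) (fun m => hG.comp (T m)) hN,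
    fun i => ?_, fun j c => ?_, fun i j => ⟨fun h => ?_, fun h => ?_⟩⟩
  · exact le_of_tendsto' (hN _) fun m => by simpa [T] using hx m i
  · refine le_of_tendsto_of_tendsto' (tendsto_lin (hg j) c).abs (hN c) fun m => ?_
    have : lin (fun i => φ m j (x m i)) c = φ m j (T m c) := by
      rw [lin_apply, hT, map_sum]
      exact Finset.sum_congr rfl fun i _ => by simp
    simp only [this]
    exact hφx m j _
  · refine le_of_tendsto (hg j i) ?_
    filter_upwards [UU_gt i, UU_gt j] with m h1 h2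
    exact (hpat m i j h1 h2).1 h
  · refine ge_of_tendsto (hg j i) ?_
    filter_upwards [UU_gt i, UU_gt j] with m h1 h2
    exact (hpat m i j h1 h2).2 h

noncomputable def Phi (N : E0 → ℝ) : List ℝ → E0 → ℝ
  | [], v => N v
  | a :: l, v => limUnder (UU : Filter ℕ) fun i => Phi N l (v + Finsupp.single i a)

section
variable {N : E0 → ℝ} {p C : ℝ}

lemma single_le (h : Good N p C) (hu : ∀ i, N (Finsupp.single i 1) ≤ 1) (i : ℕ) (a : ℝ) :
    N (Finsupp.single i a) ≤ |a| := by
  have : Finsupp.single i a = a • Finsupp.single i (1 : ℝ) := by simp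
  rw [this, h.smul]
  nlinarith [hu i, abs_nonneg a]

lemma Phi_bound (h : Good N p C) (hu : ∀ i, N (Finsupp.single i 1) ≤ 1) :
    ∀ (l : List ℝ) (v : E0), |Phi N l v| ≤ N v + (l.map fun a => |a|).sum
  | [], v => by simp [Phi, abs_of_nonneg (h.nonneg v)]
  | a :: l, v => by
      have hb : ∀ i, |Phi N l (v + Finsupp.single i a)|
          ≤ N v + ((a :: l).map fun a => |a|).sum := fun i => by
        have h1 := Phi_bound h hu l (v + Finsupp.single i a)
        have h2 := h.add v (Finsupp.single i a)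
        have h3 := single_le h hu i a
        simp only [List.map_cons, List.sum_cons]
        linarith
      have ht := tendsto_nhds_limUnder (exists_ulim UU _ _ hb)
      exact le_of_tendsto' ht.abs hb

lemma Phi_tendsto (h : Good N p C) (hu : ∀ i, N (Finsupp.single i 1) ≤ 1) (a : ℝ) (l : List ℝ)
    (v : E0) : Tendsto (fun i => Phi N l (v + Finsupp.single i a)) UU (𝓝 (Phi N (a :: l) v)) := by
  refine tendsto_nhds_limUnder (exists_ulim UU _ (N v + |a| + (l.map fun a => |a|).sum)
    fun i => ?_)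
  have h1 := Phi_bound h hu l (v + Finsupp.single i a)
  have h2 := h.add v (Finsupp.single i a)
  have h3 := single_le h hu i a
  linarith

lemma Phi_filter : ∀ (l : List ℝ) (v : E0), Phi N (l.filter fun a => a ≠ 0) v = Phi N l v
  | [], v => rfl
  | a :: l, v => by
      by_cases ha : a = 0
      · subst ha
        rw [List.filter_cons_of_neg (by simp), Phi_filter l v]
        simp only [Phi, Finsupp.single_zero, add_zero]
        exact (tendsto_const_nhds.limUnder_eq).symm
      · rw [List.filter_cons_of_pos (by simpa using ha)]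
        simp only [Phi, Phi_filter l]

lemma Phi_good (hp : 0 ≤ p) (h : Good N p C) (hu : ∀ i, N (Finsupp.single i 1) ≤ 1) :
    ∀ l : List ℕ, Good (fun x : E0 × E0 => Phi N (l.map x.2) x.1) p C
  | [] => h.comp (LinearMap.fst ℝ E0 E0)
  | i :: l => by
      let T : ℕ → (E0 × E0) →ₗ[ℝ] (E0 × E0) := fun j => LinearMap.prod
        (LinearMap.fst ℝ E0 E0
          + (Finsupp.lsingle j).comp ((Finsupp.lapply i).comp (LinearMap.snd ℝ E0 E0)))
        (LinearMap.snd ℝ E0 E0)
      refine Good.lim hp UU (fun j x => Phi N (l.map (T j x).2) (T j x).1)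
        (fun j => (Phi_good hp h hu l).comp (T j)) fun x => ?_
      exact Phi_tendsto h hu (x.2 i) (l.map x.2) x.1

lemma Phi_dom (h : Good N p C) (hu : ∀ i, N (Finsupp.single i 1) ≤ 1) {w : ℕ → ℝ} {w' : ℝ}
    (hw : Tendsto w UU (𝓝 w')) (l₂ : List ℝ) (κ : ℝ) (hb : ∀ v, |lin w v + κ| ≤ Phi N l₂ v) :
    ∀ (l₁ : List ℝ) (v : E0), |lin w v + w' * l₁.sum + κ| ≤ Phi N (l₁ ++ l₂) v
  | [], v => by simpa using hb v
  | a :: l, v => by
      have h1 : Tendsto (fun i => |lin w v + a * w i + w' * l.sum + κ|) UU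
          (𝓝 |lin w v + a * w' + w' * l.sum + κ|) :=
        ((((hw.const_mul a).const_add _).add_const _).add_const _).abs
      have h2 := le_of_tendsto_of_tendsto' h1 (Phi_tendsto h hu a (l ++ l₂) v) fun i => by
        have := Phi_dom h hu hw l₂ κ hb l (v + Finsupp.single i a)
        rwa [map_add, lin_single] at this
      rw [List.cons_append, List.sum_cons]
      have e : lin w v + w' * (a + l.sum) + κ = lin w v + a * w' + w' * l.sum + κ := by ring
      rw [e]; exact h2

noncomputable def N2 (N : E0 → ℝ) (d : E0) : ℝ := Phi N ((d.support.sort).map d) 0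

lemma N2_eq (N : E0 → ℝ) (d : E0) (l : List ℕ) (hl : l.Pairwise (· < ·))
    (hs : ∀ i, d i ≠ 0 → i ∈ l) : Phi N (l.map d) 0 = N2 N d := by
  unfold N2
  rw [← Phi_filter (l.map d), ← Phi_filter ((d.support.sort (· ≤ ·)).map d), List.filter_map,
    List.filter_map]
  congr 2
  refine List.Pairwise.eq_of_mem_iff (r := (· < ·)) (hl.filter _)
    ((Finset.sortedLT_sort d.support).pairwise.filter _) fun a => ?_
  simp only [List.mem_filter, Finset.mem_sort, Finsupp.mem_support_iff, Function.comp,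
    decide_eq_true_eq]
  exact ⟨fun h => ⟨h.2, h.2⟩, fun h => ⟨hs a h.2, h.2⟩⟩

lemma N2_range (N : E0 → ℝ) (d : E0) :
    ∀ᶠ R in atTop, Phi N ((List.range R).map d) 0 = N2 N d := by
  filter_upwards [eventually_gt_atTop (d.support.sup id)] with R hR
  refine N2_eq N d _ List.pairwise_lt_range fun i hi => ?_
  rw [List.mem_range]
  exact lt_of_le_of_lt (Finset.le_sup (f := id) (Finsupp.mem_support_iff.mpr hi)) hR

end

def Spread (N : E0 → ℝ) : Prop :=
  ∀ (ι : Type) [Fintype ι] [LinearOrder ι] (σ σ' : ι → ℕ), StrictMono σ → StrictMono σ' →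
    ∀ c : ι → ℝ, N (∑ i, Finsupp.single (σ i) (c i)) = N (∑ i, Finsupp.single (σ' i) (c i))

structure Sys (N : E0 → ℝ) (p C θ : ℝ) : Prop where
  good : Good N p C
  unit : ∀ i, N (Finsupp.single i 1) ≤ 1
  james : ∀ (k k' : ℕ) (c : E0), k ≤ k' → θ * |∑ i ∈ Finset.Ico k k', c i| ≤ N c
  spread : Spread N

lemma sum_single_apply {ι : Type*} [Fintype ι] {σ : ι → ℕ} (hσ : Function.Injective σ)
    (c : ι → ℝ) (i : ι) : (∑ j, Finsupp.single (σ j) (c j) : E0) (σ i) = c i := by
  rw [Finsupp.finset_sum_apply, Finset.sum_eq_single i]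
  · simp
  · intro j _ hj
    exact Finsupp.single_eq_of_ne' fun h => hj (hσ h)
  · simp

lemma N2_spread (N : E0 → ℝ) : Spread (N2 N) := by
  intro ι _ _
  let e := monoEquivOfFin ι rfl
  have key : ∀ σ : ι → ℕ, StrictMono σ → ∀ c : ι → ℝ,
      N2 N (∑ i, Finsupp.single (σ i) (c i)) = Phi N (List.ofFn fun k => c (e k)) 0 := by
    intro σ hσ c
    rw [← N2_eq N _ (List.ofFn fun k => σ (e k))]
    · rw [List.map_ofFn]
      congr 2
      funext k
      exact sum_single_apply hσ.injective c (e k)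
    · rw [List.pairwise_ofFn]
      intro i j hij
      exact hσ (e.strictMono hij)
    · intro i hi
      rw [List.mem_ofFn]
      by_contra hc
      push Not at hc
      apply hi
      rw [Finsupp.finset_sum_apply]
      refine Finset.sum_eq_zero fun j _ => Finsupp.single_eq_of_ne' fun h => ?_
      exact hc (e.symm j) (by simpa using h)
  intro σ σ' h1 h2 c
  rw [key σ h1, key σ' h2]

lemma list_range_sum (d : ℕ → ℝ) (k : ℕ) :
    ((List.range k).map d).sum = ∑ i ∈ Finset.range k, d i := by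
  induction k with
  | zero => simp
  | succ k ih => rw [List.range_succ, List.map_append, List.sum_append, ih,
      Finset.sum_range_succ]; simp

theorem exists_sys {N : E0 → ℝ} {g : ℕ → ℕ → ℝ} {p C α β : ℝ} (hp : 0 ≤ p) (hαβ : α < β)
    (h : Sys1 N g p C α β) : Sys (N2 N) p C ((β - α) / 2) := by
  have hg1 : ∀ j i, |g j i| ≤ 1 := fun j i => by
    have := (h.dom j (Finsupp.single i 1)).trans (h.unit i)
    rwa [lin_single, one_mul] at this
  choose γ hγ using fun j => exists_ulim UU (g j) 1 (hg1 j)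
  choose hh hhh using fun i => exists_ulim UU (fun j => g j i) 1 (fun j => hg1 j i)
  obtain ⟨γ', hγ'⟩ := exists_ulim UU γ 1 fun j => le_of_tendsto' (hγ j).abs (hg1 j)
  obtain ⟨α', hα'⟩ := exists_ulim UU hh 1 fun i => le_of_tendsto' (hhh i).abs fun j => hg1 j i
  have hβ : β ≤ γ' := ge_of_tendsto' hγ' fun j => by
    refine ge_of_tendsto (hγ j) ?_
    filter_upwards [UU_gt j] with i hi
    exact (h.pat i j).2 hi
  have hα : α' ≤ α := le_of_tendsto' hα' fun i => by
    refine le_of_tendsto (hhh i) ?_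
    filter_upwards [UU_gt i] with j hj
    exact (h.pat i j).1 hj
  have d1 : ∀ j (l : List ℝ) v, |lin (g j) v + γ j * l.sum| ≤ Phi N l v := fun j l v => by
    have := Phi_dom h.good h.unit (hγ j) [] 0 (fun v => by simpa [Phi] using h.dom j v) l v
    simpa using this
  have d2 : ∀ (l : List ℝ) v, |lin hh v + γ' * l.sum| ≤ Phi N l v := fun l v =>
    le_of_tendsto' ((tendsto_lin hhh v).add (hγ'.mul_const l.sum)).abs fun j => d1 j l v
  have d3 : ∀ (l₁ l₂ : List ℝ), |α' * l₁.sum + γ' * l₂.sum| ≤ Phi N (l₁ ++ l₂) 0 :=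
    fun l₁ l₂ => by
      have := Phi_dom h.good h.unit hα' l₂ _ (d2 l₂) l₁ 0
      simpa using this
  refine ⟨Good.lim hp atTop (fun R d => Phi N ((List.range R).map d) 0)
    (fun R => (Phi_good hp h.good h.unit (List.range R)).comp (LinearMap.inr ℝ E0 E0))
    fun d => tendsto_const_nhds.congr' ((N2_range N d).mono fun R hR => hR.symm),
    fun i => ?_, fun k k' c hk => ?_, N2_spread N⟩
  · rw [← N2_eq N _ [i] (by simp) (fun j hj => by
      by_contra hc
      exact hj (Finsupp.single_eq_of_ne (by simpa using hc)))]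
    have := Phi_bound h.good h.unit ([i].map (Finsupp.single i (1 : ℝ))) 0
    rw [h.good.zero] at this
    simp only [List.map_cons, List.map_nil, Finsupp.single_eq_same, abs_one, List.sum_cons,
      List.sum_nil, add_zero, zero_add] at this ⊢
    exact (le_abs_self _).trans this
  · obtain ⟨R, hR, hR'⟩ := ((N2_range N c).and (eventually_ge_atTop k')).exists
    have cut : ∀ k, k ≤ R → |α' * ∑ i ∈ Finset.range k, c i
        + γ' * (∑ i ∈ Finset.range R, c i - ∑ i ∈ Finset.range k, c i)| ≤ N2 N c := by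
      intro k hk
      obtain ⟨m, rfl⟩ := Nat.exists_eq_add_of_le hk
      have e := list_range_sum c (k + m)
      rw [← hR]
      rw [List.range_add, List.map_append] at e ⊢
      rw [List.sum_append, list_range_sum] at e
      have := d3 ((List.range k).map c) (((List.range m).map (k + ·)).map c)
      rw [list_range_sum] at this
      rw [← e]
      convert this using 3
      ring
    have c1 := abs_le.mp (cut k (hk.trans hR'))
    have c2 := abs_le.mp (cut k' hR')
    rw [Finset.sum_Ico_eq_sub _ hk]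
    set u := ∑ i ∈ Finset.range k', c i - ∑ i ∈ Finset.range k, c i with hu
    have c3 : |(γ' - α') * u| ≤ 2 * N2 N c := by
      rw [abs_le, hu]; constructor <;> nlinarith [c1.1, c1.2, c2.1, c2.2]
    rw [abs_mul, abs_of_nonneg (by linarith)] at c3
    nlinarith [abs_nonneg u]

end Vale.Agent.P125
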