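import Vale.Agent.P125.Prob
import Vale.Agent.P125.Spread

open Finset

namespace Vale.Agent.P125

section
variable {V Γ : Type}

def pos (τ : V × Γ → V × Γ) (u : V) (c : ℕ → Γ) : ℕ → V
  | 0 => u
  | s + 1 => (τ (pos τ u c s, c s)).1

noncomputable def ext [Nonempty Γ] {L : ℕ} (c : Fin L → Γ) (r : ℕ) : Γ :=
  if h : r < L then c ⟨r, h⟩ else Classical.arbitrary Γ

lemma pos_congr (τ : V × Γ → V × Γ) (u : V) {c c' : ℕ → Γ} :
    ∀ s, (∀ r < s, c r = c' r) → pos τ u c s = pos τ u c' s
  | 0, _ => rfl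
  | s + 1, h => by
      simp only [pos]
      rw [pos_congr τ u s fun r hr => h r (by omega), h s (by omega)]

variable [Fintype Γ] [Nonempty Γ]

omit [Fintype Γ] in
lemma ext_update {L : ℕ} (c : Fin L → Γ) (j : Fin L) (γ : Γ) {r : ℕ} (hr : r ≠ j) :
    ext (Function.update c j γ) r = ext c r := by
  unfold ext
  split_ifs with h
  · exact Function.update_of_ne (fun e => hr (congrArg Fin.val e)) _ _
  · rfl

lemma av_update {L : ℕ} (j : Fin L) (H : (Fin L → Γ) → Γ → ℝ)
    (hH : ∀ c γ γ', H (Function.update c j γ') γ = H c γ) :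
    av (fun c => H c (c j)) = av fun c => av fun γ => H c γ := by
  let e : (Fin L → Γ) × Γ ≃ (Fin L → Γ) × Γ :=
    Function.Involutive.toPerm (fun x => (Function.update x.1 j x.2, x.1 j)) (by
      rintro ⟨c, γ⟩; simp)
  rw [← av_fst (β := Γ) fun c => H c (c j), ← av_equiv e, av_prod]
  congr 1
  funext c
  congr 1
  funext γ
  change H (Function.update c j γ) (Function.update c j γ j) = H c γ
  rw [hH, Function.update_self]

lemma av_step (τ : V × Γ → V × Γ) {L s : ℕ} (hs : s < L) (u : V) (F : V × Γ → ℝ) :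
    av (fun c : Fin L → Γ => F (pos τ u (ext c) s, ext c s))
      = av fun c : Fin L → Γ => av fun γ => F (pos τ u (ext c) s, γ) := by
  rw [← av_update ⟨s, hs⟩ (fun c γ => F (pos τ u (ext c) s, γ))]
  · simp [ext, hs]
  · intro c γ γ'
    rw [pos_congr τ u s fun r hr => ext_update c ⟨s, hs⟩ γ' (by simp; omega)]

variable [Fintype V] [Nonempty V]

omit [Nonempty V] in
lemma av_pos {τ : V × Γ → V × Γ} (hτ : Function.Involutive τ) {L : ℕ} :
    ∀ s, s ≤ L → ∀ F : V → ℝ,
      av (fun u => av fun c : Fin L → Γ => F (pos τ u (ext c) s)) = av F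
  | 0, _, F => by simp only [pos, av_const]
  | s + 1, hs, F => by
      have e1 : ∀ u, av (fun c : Fin L → Γ => F (pos τ u (ext c) (s + 1)))
          = av fun c : Fin L → Γ => av fun γ => F (τ (pos τ u (ext c) s, γ)).1 := fun u =>
        av_step τ (by omega) u fun h => F (τ h).1
      simp only [e1]
      rw [av_pos hτ s (by omega) fun w => av fun γ => F (τ (w, γ)).1,
        ← av_prod fun h : V × Γ => F (τ h).1, ← av_fst (β := Γ) F]
      exact av_equiv hτ.toPerm fun h : V × Γ => F h.1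

omit [Nonempty V] in
lemma av_edge {τ : V × Γ → V × Γ} (hτ : Function.Involutive τ) {L s : ℕ} (hs : s < L)
    (F : V × Γ → ℝ) :
    av (fun x : V × (Fin L → Γ) => F (pos τ x.1 (ext x.2) s, ext x.2 s)) = av F := by
  rw [av_prod]
  simp only [av_step τ hs]
  rw [av_pos hτ s hs.le fun w => av fun γ => F (w, γ), ← av_prod]

noncomputable def Pm (τ : V × Γ → V × Γ) : Matrix V V ℝ := fun u v =>
  pr fun γ => (τ (u, γ)).1 = v

omit [Nonempty Γ] [Nonempty V] in
lemma Pm_sum (τ : V × Γ → V × Γ) (u : V) (F : V → ℝ) :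
    ∑ v, Pm τ u v * F v = av fun γ => F (τ (u, γ)).1 := by
  unfold Pm pr
  simp_rw [mul_comm _ (F _), ← av_mul]
  rw [← av_sum]
  congr 1
  funext γ
  rw [Finset.sum_eq_single (τ (u, γ)).1]
  · simp
  · intro v _ hv; simp [Ne.symm hv]
  · simp

omit [Nonempty Γ] [Nonempty V] in
lemma Pm_symm {τ : V × Γ → V × Γ} (hτ : Function.Involutive τ) (u v : V) :
    Pm τ u v = Pm τ v u := by
  classical
  have key : ∀ u v : V, ∑ γ, (if (τ (u, γ)).1 = v then (1 : ℝ) else 0)
      = ∑ h : V × Γ, if h.1 = u ∧ (τ h).1 = v then (1 : ℝ) else 0 := by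
    intro u v
    rw [Fintype.sum_prod_type, Finset.sum_eq_single u]
    · simp
    · intro w _ hw; simp [hw]
    · simp
  unfold Pm pr av
  congr 1
  have a1 := key u v
  have a2 := key v u
  rw [← Equiv.sum_comp hτ.toPerm] at a2
  simp only [Function.Involutive.coe_toPerm, hτ _] at a2
  convert a1.trans (Eq.trans ?_ a2.symm) using 1
  exact Finset.sum_congr rfl fun h _ => by simp only [and_comm]

omit [Nonempty V] in
lemma Pm_pow [DecidableEq V] (τ : V × Γ → V × Γ) {L : ℕ} (u : V) : ∀ s, s ≤ L → ∀ F : V → ℝ,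
    ∑ v, (Pm τ ^ s) u v * F v = av fun c : Fin L → Γ => F (pos τ u (ext c) s)
  | 0, _, F => by simp [pos, av_const, Matrix.one_apply]
  | s + 1, hs, F => by
      have e1 : av (fun c : Fin L → Γ => F (pos τ u (ext c) (s + 1)))
          = av fun c : Fin L → Γ => av fun γ => F (τ (pos τ u (ext c) s, γ)).1 :=
        av_step τ (by omega) u fun h => F (τ h).1
      rw [e1, ← Pm_pow τ u s (by omega) fun w => av fun γ => F (τ (w, γ)).1, pow_succ]
      simp_rw [Matrix.mul_apply, Finset.sum_mul, ← Pm_sum, Finset.mul_sum]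
      rw [Finset.sum_comm]
      exact Finset.sum_congr rfl fun w _ => Finset.sum_congr rfl fun v _ => by ring

variable {E : Type*} [AddCommGroup E] [Module ℝ E] {N : E → ℝ} {p C : ℝ}

theorem mt_walk (hN : Good N p C) {τ : V × Γ → V × Γ} (hτ : Function.Involutive τ) (f : V → E)
    {L : ℕ} (hL : 1 ≤ L) :
    av (fun x : V × (Fin L → Γ) => N (f (pos τ x.1 (ext x.2) L) - f x.1) ^ p)
      ≤ C * L * av fun h : V × Γ => N (f (τ h).1 - f h.1) ^ p := by
  classical
  have hc : (0 : ℝ) < Fintype.card V := by exact_mod_cast Fintype.card_pos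
  have := hN.mt V (fun _ => 1 / Fintype.card V) (Pm τ) (fun _ => by positivity)
    (by simp) (fun _ _ => pr_nonneg _)
    (fun u => by
      have := Pm_sum τ u fun _ => 1
      simpa [av_const] using this)
    (fun u v => by rw [Pm_symm hτ u v]) f L hL
  rw [av_prod, av_prod fun h : V × Γ => N (f (τ h).1 - f h.1) ^ p]
  convert this using 2
  · simp_rw [mul_assoc, ← Finset.mul_sum, Pm_pow τ _ L le_rfl]
    conv_lhs => unfold av
    rw [div_eq_mul_one_div, mul_comm]
    rfl
  · simp_rw [mul_assoc, ← Finset.mul_sum, Pm_sum τ]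
    conv_lhs => unfold av
    rw [div_eq_mul_one_div, mul_comm]
    rfl

noncomputable def emb {ι : Type} [Fintype ι] (e : ι → E) (w : ι → ℤ) : E := ∑ i, (w i : ℝ) • e i

theorem form_bound (hN : Good N p C) (hp : 0 < p) (hC : 0 ≤ C) {τ : V × Γ → V × Γ}
    (hτ : Function.Involutive τ) {ι : Type} [Fintype ι] (e : ι → E) (W : V × Γ → ι → ℤ)
    (hW1 : ∀ h i, |W h i| ≤ 1) (hW2 : ∀ h i, W (τ h) i = -W h i) {L : ℕ} (hL : 1 ≤ L) :
    1 / 2 * av (fun x : V × (Fin L → Γ) =>
        N (∑ s ∈ Finset.range L, emb e (W (pos τ x.1 (ext x.2) s, ext x.2 s))) ^ p)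
      ≤ C * L * av fun h : V × Γ => N (emb e (W h)) ^ p := by
  classical
  set Q : ℕ := 4 * L * (Fintype.card ι + 1) with hQ
  have hQ2 : 2 * L < Q := by rw [hQ]; nlinarith
  let J := ↥(Finset.Ico (0 : ℤ) Q)
  have : Nonempty J := ⟨⟨0, by simp; omega⟩⟩
  let τ' : (V × (ι → J)) × Γ → (V × (ι → J)) × Γ := fun x =>
    if h : ∀ i, (x.1.2 i : ℤ) + W (x.1.1, x.2) i ∈ Finset.Ico (0 : ℤ) Q then
      (((τ (x.1.1, x.2)).1, fun i => ⟨_, h i⟩), (τ (x.1.1, x.2)).2) else x
  have hτ' : Function.Involutive τ' := by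
    rintro ⟨⟨u, a⟩, γ⟩
    by_cases h : ∀ i, (a i : ℤ) + W (u, γ) i ∈ Finset.Ico (0 : ℤ) Q
    · have e1 : τ' ((u, a), γ) = (((τ (u, γ)).1, fun i => ⟨_, h i⟩), (τ (u, γ)).2) := dif_pos h
      have h' : ∀ i, ((a i : ℤ) + W (u, γ) i) + W ((τ (u, γ)).1, (τ (u, γ)).2) i
          ∈ Finset.Ico (0 : ℤ) Q := fun i => by
        rw [Prod.mk.eta, hW2]
        simp
      rw [e1]
      simp only [τ']
      rw [dif_pos h']
      simp only [Prod.mk.eta, hτ (u, γ), Prod.mk.injEq, true_and, and_true]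
      funext i
      apply Subtype.ext
      simp [hW2]
    · have e1 : τ' ((u, a), γ) = ((u, a), γ) := dif_neg h
      rw [e1, e1]
  let f : V × (ι → J) → E := fun x => emb e fun i => (x.2 i : ℤ)
  have hmt := mt_walk hN hτ' f hL
  have hemb : ∀ w w' : ι → ℤ, emb e (fun i => w i + w' i) - emb e w = emb e w' := by
    intro w w'
    unfold emb
    rw [← Finset.sum_sub_distrib]
    exact Finset.sum_congr rfl fun i _ => by push_cast; module
  have hR : av (fun h : (V × (ι → J)) × Γ => N (f (τ' h).1 - f h.1) ^ p)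
      ≤ av fun h : V × Γ => N (emb e (W h)) ^ p := by
    calc _ ≤ av (fun h : (V × (ι → J)) × Γ => N (emb e (W (h.1.1, h.2))) ^ p) := by
          refine av_mono ?_
          rintro ⟨⟨u, a⟩, γ⟩
          by_cases h : ∀ i, (a i : ℤ) + W (u, γ) i ∈ Finset.Ico (0 : ℤ) Q
          · have e1 : τ' ((u, a), γ) = (((τ (u, γ)).1, fun i => ⟨_, h i⟩), (τ (u, γ)).2) :=
              dif_pos h
            rw [e1]
            simp only [f]
            rw [hemb]
          · have e1 : τ' ((u, a), γ) = ((u, a), γ) := dif_neg h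
            rw [e1, sub_self, hN.zero, Real.zero_rpow hp.ne']
            exact Real.rpow_nonneg (hN.nonneg _) _
      _ = _ := by
          rw [av_prod', av_prod' fun h : V × Γ => N (emb e (W h)) ^ p]
          congr 1
          funext γ
          exact av_fst (β := ι → J) fun u => N (emb e (W (u, γ))) ^ p
  have hint : ∀ (u : V) (a : ι → J) (c : ℕ → Γ), (∀ i, (L : ℤ) ≤ a i ∧ (a i : ℤ) < Q - L) →
      ∀ s, s ≤ L → (pos τ' (u, a) c s).1 = pos τ u c s ∧ ∀ i, ((pos τ' (u, a) c s).2 i : ℤ)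
        = a i + ∑ r ∈ Finset.range s, W (pos τ u c r, c r) i := by
    intro u a c ha s
    induction s with
    | zero => intro _; simp [pos]
    | succ s ih =>
      intro hs
      obtain ⟨i1, i2⟩ := ih (by omega)
      have h : ∀ i, ((pos τ' (u, a) c s).2 i : ℤ) + W ((pos τ' (u, a) c s).1, c s) i
          ∈ Finset.Ico (0 : ℤ) Q := fun i => by
        rw [i1, i2, add_assoc, ← Finset.sum_range_succ fun r => W (pos τ u c r, c r) i]
        have hb : |∑ r ∈ Finset.range (s + 1), W (pos τ u c r, c r) i| ≤ (s + 1 : ℕ) := by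
          refine (Finset.abs_sum_le_sum_abs _ _).trans ?_
          refine (Finset.sum_le_sum fun r _ => hW1 _ i).trans ?_
          simp
        rw [abs_le] at hb
        have := ha i
        rw [Finset.mem_Ico]
        omega
      have e1 : pos τ' (u, a) c (s + 1) = ((τ ((pos τ' (u, a) c s).1, c s)).1,
          fun i => ⟨_, h i⟩) := by
        simp only [pos]
        conv_lhs => simp only [τ']
        rw [dif_pos h]
      rw [e1]
      refine ⟨by simp only [i1, pos], fun i => ?_⟩
      simp only [i1, i2, Finset.sum_range_succ]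
      ring
  have hbad : pr (fun a : ι → J => ∃ i ∈ (Finset.univ : Finset ι),
      ¬ ((L : ℤ) ≤ a i ∧ (a i : ℤ) < Q - L)) ≤ 1 / 2 := by
    refine (pr_exists _ _).trans ?_
    have h1 : pr (fun x : J => ¬ ((L : ℤ) ≤ x ∧ (x : ℤ) < Q - L)) ≤ 2 * L / Q := by
      rw [pr_eq_card]
      have c1 : Fintype.card J = Q := by simp [J]
      have c2 : (Finset.univ.filter fun x : J => ¬ ((L : ℤ) ≤ x ∧ (x : ℤ) < Q - L)).card
          ≤ 2 * L := by
        have : ((Finset.Ico (0 : ℤ) L) ∪ Finset.Ico ((Q : ℤ) - L) Q).card ≤ 2 * L := by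
          refine (Finset.card_union_le _ _).trans ?_
          simp; omega
        refine le_trans (Finset.card_le_card_of_injOn (fun x : J => (x : ℤ)) ?_
          fun x _ y _ h => Subtype.ext h) this
        intro x hx
        have h2 := Finset.mem_Ico.mp x.2
        simp only [Finset.coe_filter, Finset.mem_univ, true_and, Set.mem_setOf_eq] at hx
        simp only [Finset.coe_union, Finset.coe_Ico, Set.mem_union, Set.mem_Ico]
        omega
      rw [c1]
      exact div_le_div_of_nonneg_right (by exact_mod_cast c2) (Nat.cast_nonneg _)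
    have h2 : ∀ i : ι, pr (fun a : ι → J => ¬ ((L : ℤ) ≤ a i ∧ (a i : ℤ) < Q - L))
        ≤ 2 * L / Q := fun i =>
      (pr_eval i fun x : J => ¬ ((L : ℤ) ≤ x ∧ (x : ℤ) < Q - L)).le.trans h1
    refine (Finset.sum_le_sum fun i _ => h2 i).trans ?_
    have hL' : (0 : ℝ) < L := by exact_mod_cast hL
    rw [Finset.sum_const, Finset.card_univ, nsmul_eq_mul, hQ]
    push_cast
    rw [← mul_div_assoc, div_le_iff₀ (by positivity)]
    nlinarith
  have hLw : 1 / 2 * av (fun x : V × (Fin L → Γ) =>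
        N (∑ s ∈ Finset.range L, emb e (W (pos τ x.1 (ext x.2) s, ext x.2 s))) ^ p)
      ≤ av (fun x : (V × (ι → J)) × (Fin L → Γ) =>
        N (f (pos τ' x.1 (ext x.2) L) - f x.1) ^ p) := by
    rw [av_prod', av_prod' fun x : (V × (ι → J)) × (Fin L → Γ) =>
      N (f (pos τ' x.1 (ext x.2) L) - f x.1) ^ p, ← av_mul]
    refine av_mono fun c => ?_
    rw [av_prod fun x : V × (ι → J) => N (f (pos τ' x (ext c) L) - f x) ^ p, ← av_mul]
    refine av_mono fun u => ?_
    have hb0 := Real.rpow_nonneg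
      (hN.nonneg (∑ s ∈ Finset.range L, emb e (W (pos τ u (ext c) s, ext c s)))) p
    refine le_trans ?_ (av_lower (fun a => Real.rpow_nonneg (hN.nonneg _) _)
      (fun a : ι → J => ∃ i ∈ (Finset.univ : Finset ι), ¬ ((L : ℤ) ≤ a i ∧ (a i : ℤ) < Q - L))
      (b := N (∑ s ∈ Finset.range L, emb e (W (pos τ u (ext c) s, ext c s))) ^ p)
      fun a ha => le_of_eq ?_)
    · nlinarith
    · push Not at ha
      obtain ⟨-, i2⟩ := hint u a (ext c) (fun i => ha i (Finset.mem_univ i)) L le_rfl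
      congr 2
      simp only [f, i2]
      rw [hemb]
      unfold emb
      rw [Finset.sum_comm]
      refine Finset.sum_congr rfl fun i _ => ?_
      rw [← Finset.sum_smul]
      push_cast
      rfl
  exact hLw.trans (hmt.trans (mul_le_mul_of_nonneg_left hR (by positivity)))

end

end Vale.Agent.P125
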