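import Vale.Agent.P125.Geom
import Vale.Agent.P125.Walk

open Finset

namespace Vale.Agent.P125

def key (d k j : ℕ) : ℕ := j / 2 * (2 * d) + 2 * k + j % 2

lemma key_even {d k k' j : ℕ} (h : k' < k) (hj : Even j) : key d k' (j + 1) < key d k j := by
  obtain ⟨r, rfl⟩ := hj
  unfold key
  rw [show (r + r + 1) / 2 = r by omega, show (r + r) / 2 = r by omega]
  omega

lemma key_odd {d k j : ℕ} (k' : ℕ) (h : k < d) (hj : Odd j) : key d k j < key d k' (j + 1) := by
  obtain ⟨r, rfl⟩ := hj
  unfold key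
  rw [show (2 * r + 1 + 1) / 2 = r + 1 by omega, show (2 * r + 1) / 2 = r by omega, add_mul]
  omega

lemma key_mono {d k : ℕ} (h : k < d) : StrictMono (key d k) := by
  refine strictMono_nat_of_lt_succ fun j => ?_
  rcases Nat.even_or_odd j with hj | hj
  · obtain ⟨r, rfl⟩ := hj
    unfold key
    rw [show (r + r + 1) / 2 = r by omega, show (r + r) / 2 = r by omega]
    omega
  · exact key_odd k h hj

lemma key_lt {d k j n : ℕ} (h : k < d) (hj : j ≤ n) : key d k j < (n + 1) * (2 * d) := by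
  unfold key
  have : j / 2 * (2 * d) ≤ n * (2 * d) := Nat.mul_le_mul_right _ (by omega)
  rw [add_mul]
  omega

def off (L : ℕ) (kk T : ℕ → ℕ) : ℕ → ℕ
  | 0 => 2 * L - T 0
  | s + 1 => if kk s < kk (s + 1) then off L kk T s - T s - T (s + 1)
      else off L kk T s + 2 - T s - T (s + 1)

lemma off_inv {L : ℕ} {kk T : ℕ → ℕ} (hT : ∀ s, T s ≤ 1) : ∀ s, s < L →
    2 * L ≤ off L kk T s + 1 + 2 * s ∧ off L kk T s ≤ 2 * L + 2 * s ∧
      (off L kk T s + T s) % 2 = 0
  | 0, h => by
      have := hT 0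
      simp only [off]; omega
  | s + 1, h => by
      have := off_inv (L := L) (kk := kk) hT s (by omega)
      have := hT s
      have := hT (s + 1)
      simp only [off]
      split_ifs <;> omega

lemma geo_of {L m d : ℕ} {kk T : ℕ → ℕ} (hT : ∀ s, T s ≤ 1) (hk : ∀ s, kk s < d)
    (hne : ∀ s, s + 1 < L → kk s ≠ kk (s + 1)) (X Z : ℕ → ℕ → ℕ)
    (hZ : ∀ s < L, ∀ a b, a < b → b < (m + 4 * L + 1) * (2 * d) → Z s a < Z s b)
    (hX1 : ∀ s < L, ∀ i < m + 4 * L, X s i = Z s (key d (kk s) (i + T s)))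
    (hX2 : ∀ s, s + 1 < L → ∀ i < m + 4 * L, X s i = Z (s + 1) (key d (kk s) (i + (1 - T s)))) :
    Geo L m X T (off L kk T) := by
  refine ⟨fun s hs i j hij hj => ?_, fun s hs => ?_, fun s hs => ?_, fun s hs ρ hρ => ?_⟩
  · rw [hX1 s hs i (by omega), hX1 s hs j hj]
    have := hT s
    exact hZ s hs _ _ (key_mono (hk s) (by omega)) (key_lt (hk s) (by omega))
  · have := off_inv (kk := kk) hT s hs; omega
  · exact Nat.even_iff.mpr (off_inv (kk := kk) hT s hs).2.2
  · have i1 := off_inv (kk := kk) hT s (by omega : s < L)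
    have i2 := off_inv (kk := kk) hT (s + 1) hs
    have t1 := hT s
    have t2 := hT (s + 1)
    rw [hX2 s hs _ (by omega), hX1 (s + 1) hs _ (by omega)]
    rcases lt_or_gt_of_ne (hne s hs) with h | h
    · have e : off L kk T (s + 1) = off L kk T s - T s - T (s + 1) := by simp only [off, h, if_true]
      rw [show off L kk T s + ρ + (1 - T s) = off L kk T (s + 1) + ρ + T (s + 1) + 1 by omega]
      refine ⟨fun he => hZ _ hs _ _ (key_even h ?_) (key_lt (hk _) (by omega)),
        fun he => hZ _ hs _ _ (key_odd _ (hk _) ?_) (key_lt (hk _) (by omega))⟩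
      · rw [Nat.even_iff] at he ⊢; omega
      · rw [Nat.odd_iff] at he ⊢; omega
    · have e : off L kk T (s + 1) = off L kk T s + 2 - T s - T (s + 1) := by
        simp only [off, not_lt.mpr h.le, if_false]
      rw [show off L kk T (s + 1) + ρ + T (s + 1) = off L kk T s + ρ + (1 - T s) + 1 by omega]
      refine ⟨fun he => hZ _ hs _ _ (key_odd _ (hk _) ?_) (key_lt (hk _) (by omega)),
        fun he => hZ _ hs _ _ (key_even h ?_) (key_lt (hk _) (by omega))⟩
      · rw [Nat.even_iff] at he; rw [Nat.odd_iff]; omega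
      · rw [Nat.odd_iff] at he; rw [Nat.even_iff]; omega

lemma pr_same {d L s : ℕ} [Nonempty (Fin d)] (hs : s + 1 < L) :
    pr (fun c : Fin L → Fin d × Bool => (ext c s).1 = (ext c (s + 1)).1) ≤ 1 / d := by
  classical
  have h := av_update (Γ := Fin d × Bool) ⟨s + 1, hs⟩
    (fun c γ => @ite ℝ (γ.1 = (ext c s).1) (Classical.propDecidable _) 1 0)
    (fun c γ γ' => by rw [ext_update c _ γ' (by simp)])
  have h2 : ∀ a : Fin d, av (fun γ : Fin d × Bool =>
      @ite ℝ (γ.1 = a) (Classical.propDecidable _) 1 0) = 1 / d := fun a => by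
    have := (pr_fst (β := Bool) fun x : Fin d => x = a).trans (pr_eq_single a)
    rw [Fintype.card_fin] at this
    exact this
  simp only [h2, av_const] at h
  rw [← h]
  refine le_of_eq ?_
  unfold pr
  congr 1
  funext c
  have : ext c (s + 1) = c ⟨s + 1, hs⟩ := by simp [ext, hs]
  simp only [this, eq_comm]
  congr

variable {N : E0 → ℝ} {p C θ : ℝ}

theorem chain (h : Sys N p C θ) (hp : 0 < p) (hC : 0 ≤ C) {L : ℕ} (hL : 1 ≤ L) (m : ℕ) {b : ℝ}
    (hb : 0 ≤ b) (hG : ∀ X T o, Geo L m X T o → b ≤ N (pathSum L (m + 4 * L) X T)) :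
    b ^ p / 4 ≤ C * L * N (alt (m + 4 * L)) ^ p := by
  classical
  have hL' : (0 : ℝ) < L := by exact_mod_cast hL
  set n := m + 4 * L with hn
  set d := 4 * L with hd
  have hd0 : 0 < d := by omega
  have : Nonempty (Fin d) := ⟨⟨0, hd0⟩⟩
  set R := (n + 1) * (2 * d) with hR
  have hR0 : 0 < R := by positivity
  let idx : ℕ → Fin R := fun j => ⟨j % R, Nat.mod_lt _ hR0⟩
  have hidx : ∀ a b, a < b → b < R → idx a < idx b := fun a b hab hb => by
    simp only [idx, Fin.mk_lt_mk]
    rwa [Nat.mod_eq_of_lt hb, Nat.mod_eq_of_lt (hab.trans hb)]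
  obtain ⟨Ω, _, _, Λ, _, _, z, hz1, hz2⟩ := contract (Fin R) n (1 / (12 * L)) (by positivity)
  have hpat : ∀ (k : Fin d) (t : ℕ), t ≤ 1 →
      StrictMono fun i : Fin n => idx (key d k (i + t)) := fun k t ht i j hij =>
    hidx _ _ (key_mono k.2 (by simpa using hij)) (key_lt k.2 (by have := j.2; omega))
  choose φ hφ using fun k : Fin d => hz2 _ _ (hpat k 0 zero_le_one) (hpat k 1 le_rfl)
  let τ : Ω × (Fin d × Bool) → Ω × (Fin d × Bool) := fun x =>
    (if x.2.2 then (φ x.2.1).symm x.1 else φ x.2.1 x.1, (x.2.1, !x.2.2))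
  have hτ : Function.Involutive τ := by
    rintro ⟨ω, k, _ | _⟩ <;> simp [τ]
  let xs : Ω × (Fin d × Bool) → ℕ → Λ := fun x i => z x.1 (idx (key d x.2.1 (i + x.2.2.toNat)))
  let GE : Ω × (Fin d × Bool) → Prop := fun x =>
    StrictMono (z x.1) ∧ StrictMono (z (τ x).1) ∧ ∀ i < n, xs x i = xs (τ x) i
  have hGE : ∀ x, GE (τ x) ↔ GE x := fun x => by
    simp only [GE, hτ x]
    exact ⟨fun ⟨a, b, c⟩ => ⟨b, a, fun i hi => (c i hi).symm⟩,
      fun ⟨a, b, c⟩ => ⟨b, a, fun i hi => (c i hi).symm⟩⟩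
  have hxs : ∀ x, GE x → ∀ i j, i < j → j < n → xs x i < xs x j := fun x hx i j hij hj =>
    hx.1 (hidx _ _ (key_mono x.2.1.2 (by omega))
      (key_lt x.2.1.2 (by have := Bool.toNat_le x.2.2; omega)))
  let W : Ω × (Fin d × Bool) → Λ → ℤ := fun x l =>
    if GE x then ∑ i ∈ Finset.range n, if xs x i = l then (-1) ^ (i + x.2.2.toNat) else 0 else 0
  have hW1 : ∀ x l, |W x l| ≤ 1 := fun x l => by
    simp only [W]
    split_ifs with hx
    · by_cases hl : ∃ i ∈ Finset.range n, xs x i = l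
      · obtain ⟨i, hi, hil⟩ := hl
        rw [Finset.sum_eq_single i]
        · simp [hil]
        · intro j hj hji
          rw [if_neg]
          intro hjl
          rcases lt_or_gt_of_ne hji with h3 | h3
          · exact (hxs x hx j i h3 (Finset.mem_range.mp hi)).ne (hjl.trans hil.symm)
          · exact (hxs x hx i j h3 (Finset.mem_range.mp hj)).ne (hil.trans hjl.symm)
        · intro h3; exact absurd hi h3
      · push Not at hl
        rw [Finset.sum_eq_zero fun i hi => if_neg (hl i hi)]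
        simp
    · simp
  have hW2 : ∀ x l, W (τ x) l = -W x l := fun x l => by
    simp only [W, hGE]
    split_ifs with hx
    · rw [← Finset.sum_neg_distrib]
      refine Finset.sum_congr rfl fun i hi => ?_
      rw [← hx.2.2 i (Finset.mem_range.mp hi)]
      split_ifs
      · obtain ⟨ω, k, _ | _⟩ := x <;> simp [τ, pow_succ]
      · simp
    · simp
  let E : Λ → ℕ := fun l => ((monoEquivOfFin Λ rfl).symm l : ℕ)
  have hE : StrictMono E := fun a b hab => by
    simp only [E]
    exact_mod_cast (monoEquivOfFin Λ rfl).symm.strictMono hab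
  let e : Λ → E0 := fun l => Finsupp.single (E l) 1
  have hemb : ∀ x, GE x → emb e (W x) = ∑ i ∈ Finset.range n,
      Finsupp.single (E (xs x i)) ((-1 : ℝ) ^ (i + x.2.2.toNat)) := fun x hx => by
    unfold emb
    simp only [W, hx, if_true]
    push_cast
    simp only [Finset.sum_smul]
    rw [Finset.sum_comm]
    refine Finset.sum_congr rfl fun i _ => ?_
    rw [Finset.sum_eq_single (xs x i)]
    · simp [e]
    · intro l _ hl; simp [Ne.symm hl]
    · simp
  have hfb := form_bound h.good hp hC hτ e W hW1 hW2 hL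
  have hup : av (fun x => N (emb e (W x)) ^ p) ≤ N (alt n) ^ p := by
    rw [← av_const (Ω := Ω × (Fin d × Bool)) (N (alt n) ^ p)]
    refine av_mono fun x => ?_
    by_cases hx : GE x
    · rw [hemb x hx, h.spread.range n (fun i => E (xs x i))
        (fun i j hij hj => hE (hxs x hx i j hij hj))]
      refine le_of_eq ?_
      congr 1
      have : (∑ i ∈ Finset.range n, Finsupp.single i ((-1 : ℝ) ^ (i + x.2.2.toNat)) : E0)
          = ((-1 : ℝ) ^ x.2.2.toNat) • alt n := by
        unfold alt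
        rw [Finset.smul_sum]
        refine Finset.sum_congr rfl fun i _ => ?_
        rw [Finsupp.smul_single, smul_eq_mul, pow_add, mul_comm]
      rw [this, h.good.smul]
      simp
    · have : emb e (W x) = 0 := by
        unfold emb
        simp [W, hx]
      rw [this, h.good.zero, Real.zero_rpow hp.ne']
      exact Real.rpow_nonneg (h.good.nonneg _) _
  have hbadE : pr (fun x => ¬ GE x) ≤ 3 * (1 / (12 * L)) := by
    have a1 : pr (fun x : Ω × (Fin d × Bool) => ¬ StrictMono (z x.1)) ≤ 1 / (12 * L) :=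
      (pr_fst (β := Fin d × Bool) fun ω => ¬ StrictMono (z ω)).le.trans hz1
    have a2 : pr (fun x : Ω × (Fin d × Bool) => ¬ StrictMono (z (τ x).1)) ≤ 1 / (12 * L) :=
      (pr_equiv hτ.toPerm fun x : Ω × (Fin d × Bool) => ¬ StrictMono (z x.1)).le.trans a1
    have a3 : pr (fun x : Ω × (Fin d × Bool) => ∃ i < n, xs x i ≠ xs (τ x) i) ≤ 1 / (12 * L) := by
      refine pr_prod_le' _ ?_
      rintro ⟨k, _ | _⟩
      · refine le_trans (pr_mono ?_) (hφ k)
        rintro ω ⟨i, hi, hne⟩
        exact ⟨⟨i, hi⟩, fun h3 => hne (by simpa [xs, τ] using h3.symm)⟩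
      · rw [← pr_equiv (φ k)]
        refine le_trans (pr_mono ?_) (hφ k)
        rintro ω ⟨i, hi, hne⟩
        exact ⟨⟨i, hi⟩, fun h3 => hne (by simpa [xs, τ] using h3)⟩
    have a4 := pr_or (fun x : Ω × (Fin d × Bool) => ¬ StrictMono (z (τ x).1))
      fun x => ∃ i < n, xs x i ≠ xs (τ x) i
    have a5 := pr_or (fun x : Ω × (Fin d × Bool) => ¬ StrictMono (z x.1))
      fun x => ¬ StrictMono (z (τ x).1) ∨ ∃ i < n, xs x i ≠ xs (τ x) i
    have a6 : pr (fun x => ¬ GE x) ≤ pr fun x : Ω × (Fin d × Bool) => ¬ StrictMono (z x.1) ∨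
        (¬ StrictMono (z (τ x).1) ∨ ∃ i < n, xs x i ≠ xs (τ x) i) := pr_mono fun x hx => by
      by_contra hc
      push Not at hc
      exact hx ⟨hc.1, hc.2.1, hc.2.2⟩
    linarith
  let Bad : Ω × (Fin L → Fin d × Bool) → Prop := fun x => ∃ s ∈ Finset.range L,
    ¬ GE (pos τ x.1 (ext x.2) s, ext x.2 s) ∨ (s + 1 < L ∧ (ext x.2 s).1 = (ext x.2 (s + 1)).1)
  have hbad : pr Bad ≤ 1 / 2 := by
    refine (pr_exists _ _).trans ?_
    have : ∀ s ∈ Finset.range L, pr (fun x : Ω × (Fin L → Fin d × Bool) =>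
        ¬ GE (pos τ x.1 (ext x.2) s, ext x.2 s)
          ∨ (s + 1 < L ∧ (ext x.2 s).1 = (ext x.2 (s + 1)).1)) ≤ 1 / (2 * L) := by
      intro s hs
      refine (pr_or _ _).trans ?_
      have a1 : pr (fun x : Ω × (Fin L → Fin d × Bool) =>
          ¬ GE (pos τ x.1 (ext x.2) s, ext x.2 s)) = pr fun x => ¬ GE x :=
        av_edge hτ (Finset.mem_range.mp hs)
          fun x => @ite ℝ (¬ GE x) (Classical.propDecidable _) 1 0
      have a2 : pr (fun x : Ω × (Fin L → Fin d × Bool) =>
          s + 1 < L ∧ (ext x.2 s).1 = (ext x.2 (s + 1)).1) ≤ 1 / d := by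
        by_cases h3 : s + 1 < L
        · exact pr_prod_le _ fun _ => le_trans (pr_mono fun _ h4 => h4.2) (pr_same h3)
        · rw [pr_false fun _ h4 => h3 h4.1]; positivity
      have a3 : (3 : ℝ) * (1 / (12 * L)) + 1 / d = 1 / (2 * L) := by
        rw [hd]; push_cast; field_simp; norm_num
      linarith
    refine (Finset.sum_le_sum this).trans (le_of_eq ?_)
    rw [Finset.sum_const, Finset.card_range, nsmul_eq_mul]
    field_simp
  have hlow := av_lower (f := fun x : Ω × (Fin L → Fin d × Bool) =>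
      N (∑ s ∈ Finset.range L, emb e (W (pos τ x.1 (ext x.2) s, ext x.2 s))) ^ p)
    (fun x => Real.rpow_nonneg (h.good.nonneg _) _) Bad (b := b ^ p) (by
      intro x hx
      simp only [Bad] at hx
      push Not at hx
      have g := geo_of (L := L) (m := m) (d := d) (kk := fun s => (ext x.2 s).1)
        (T := fun s => (ext x.2 s).2.toNat) (fun s => Bool.toNat_le _) (fun s => Fin.is_lt _)
        (fun s hs h3 => (hx s (Finset.mem_range.mpr (by omega))).2 hs (Fin.ext h3))
        (fun s i => E (xs (pos τ x.1 (ext x.2) s, ext x.2 s) i))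
        (fun s a => E (z (pos τ x.1 (ext x.2) s) (idx a)))
        (fun s hs a b hab hb => hE ((hx s (Finset.mem_range.mpr hs)).1.1 (hidx a b hab hb)))
        (fun s hs i hi => rfl)
        (fun s hs i hi => by
          rw [(hx s (Finset.mem_range.mpr (by omega))).1.2.2 i hi]
          have : (τ (pos τ x.1 (ext x.2) s, ext x.2 s)).2.2.toNat = 1 - (ext x.2 s).2.toNat := by
            simp only [τ]
            cases (ext x.2 s).2 <;> rfl
          simp only [xs, this]
          rfl)
      refine Real.rpow_le_rpow hb ((hG _ _ _ g).trans (le_of_eq ?_)) hp.le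
      unfold pathSum
      congr 1
      exact Finset.sum_congr rfl fun s hs => (hemb _ (hx s hs).1).symm)
  have hbp : 0 ≤ b ^ p := Real.rpow_nonneg hb _
  have := mul_le_mul_of_nonneg_left hup (mul_nonneg hC hL'.le)
  nlinarith

end Vale.Agent.P125
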