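import Mathlib

open Finset Filter Topology

namespace Vale.Agent.P125

abbrev Node := List Bool

open Classical in
noncomputable def dn (T : Set Node) : ℕ → Node → ℝ
  | 0, s => if s ∈ T then 1 else 0
  | n + 1, s => if s ∈ T then (dn T n (s ++ [false]) + dn T n (s ++ [true])) / 2 else 0

noncomputable def dens (T : Set Node) (s : Node) : ℝ := ⨅ n, dn T n s

lemma dn_mem (T : Set Node) : ∀ n s, 0 ≤ dn T n s ∧ dn T n s ≤ 1
  | 0, s => by unfold dn; split_ifs <;> norm_num
  | n + 1, s => by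
      unfold dn
      have h1 := dn_mem T n (s ++ [false])
      have h2 := dn_mem T n (s ++ [true])
      split_ifs
      · constructor <;> linarith [h1.1, h1.2, h2.1, h2.2]
      · norm_num

lemma dn_succ_le (T : Set Node) : ∀ n s, dn T (n + 1) s ≤ dn T n s
  | 0, s => by
      have h1 := dn_mem T 0 (s ++ [false])
      have h2 := dn_mem T 0 (s ++ [true])
      rw [dn, dn]
      split_ifs
      · linarith [h1.2, h2.2]
      · exact le_rfl
  | n + 1, s => by
      have h1 := dn_succ_le T n (s ++ [false])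
      have h2 := dn_succ_le T n (s ++ [true])
      rw [dn.eq_2 T s (n + 1), dn.eq_2 T s n]
      split_ifs
      · linarith
      · exact le_rfl

lemma dn_bdd (T : Set Node) (s : Node) : BddBelow (Set.range fun n => dn T n s) :=
  ⟨0, by rintro _ ⟨n, rfl⟩; exact (dn_mem T n s).1⟩

lemma dn_tendsto (T : Set Node) (s : Node) :
    Tendsto (fun n => dn T n s) atTop (𝓝 (dens T s)) :=
  tendsto_atTop_ciInf (antitone_nat_of_succ_le fun n => dn_succ_le T n s) (dn_bdd T s)

lemma dens_le_dn (T : Set Node) (n : ℕ) (s : Node) : dens T s ≤ dn T n s :=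
  ciInf_le (dn_bdd T s) n

lemma dens_mem (T : Set Node) (s : Node) : 0 ≤ dens T s ∧ dens T s ≤ 1 :=
  ⟨le_ciInf fun n => (dn_mem T n s).1, (dens_le_dn T 0 s).trans (dn_mem T 0 s).2⟩

lemma dens_of_mem {T : Set Node} {s : Node} (h : s ∈ T) :
    dens T s = (dens T (s ++ [false]) + dens T (s ++ [true])) / 2 := by
  have h1 := (dn_tendsto T s).comp (tendsto_add_atTop_nat 1)
  have h2 := ((dn_tendsto T (s ++ [false])).add (dn_tendsto T (s ++ [true]))).div_const 2
  refine tendsto_nhds_unique h1 ?_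
  convert h2 using 1
  funext n
  simp [dn, h]

lemma dens_of_not_mem {T : Set Node} {s : Node} (h : s ∉ T) : dens T s = 0 :=
  le_antisymm ((dens_le_dn T 0 s).trans (by simp [dn, h])) (dens_mem T s).1

lemma dn_mono {T T' : Set Node} (h : T' ⊆ T) : ∀ n s, dn T' n s ≤ dn T n s
  | 0, s => by
      by_cases hs : s ∈ T'
      · simp [dn, hs, h hs]
      · simp only [dn, hs, if_false]; split_ifs <;> norm_num
  | n + 1, s => by
      by_cases hs : s ∈ T'
      · simp only [dn, hs, h hs, if_true]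
        linarith [dn_mono h n (s ++ [false]), dn_mono h n (s ++ [true])]
      · have := (dn_mem T (n + 1) s).1
        rw [dn.eq_2 T' s n, if_neg hs]
        exact this

lemma dens_mono {T T' : Set Node} (h : T' ⊆ T) (s : Node) : dens T' s ≤ dens T s :=
  le_of_tendsto_of_tendsto' (dn_tendsto T' s) (dn_tendsto T s) fun n => dn_mono h n s

def Pos (T : Set Node) : Prop := ∃ s, 0 < dens T s

lemma Pos.univ : Pos Set.univ := by
  refine ⟨[], ?_⟩
  have : ∀ n s, dn Set.univ n s = 1 := by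
    intro n
    induction n with
    | zero => intro s; simp [dn]
    | succ n ih => intro s; simp [dn, ih]
  simp [dens, this]

lemma mem_of_dens_pos {T : Set Node} {s : Node} (h : 0 < dens T s) : s ∈ T := by
  by_contra hc
  rw [dens_of_not_mem hc] at h
  exact lt_irrefl _ h

lemma Pos.dense {T : Set Node} (h : Pos T) {η : ℝ} (hη : 0 < η) : ∃ s, 1 - η ≤ dens T s := by
  by_contra hc
  push Not at hc
  obtain ⟨s, hs⟩ := h
  have hη1 : 0 ≤ 1 - η := by linarith [hc s]
  have key : ∀ n s, dens T s ≤ (1 - η) * dn T n s := by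
    intro n
    induction n with
    | zero =>
      intro s
      by_cases h : s ∈ T
      · simp only [dn, h, if_true, mul_one]; exact (hc s).le
      · simp [dn, h, dens_of_not_mem h]
    | succ n ih =>
      intro s
      by_cases h : s ∈ T
      · rw [dens_of_mem h]
        simp only [dn, h, if_true]
        linarith [ih (s ++ [false]), ih (s ++ [true])]
      · simp [dn, h, dens_of_not_mem h]
  have := ge_of_tendsto' ((dn_tendsto T s).const_mul (1 - η)) fun n => key n s
  nlinarith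

structure Mart (g : Node → ℝ) : Prop where
  avg : ∀ s, g s = (g (s ++ [false]) + g (s ++ [true])) / 2
  bdd : ∀ s, |g s| ≤ 2

noncomputable def beta (T : Set Node) (g : Node → ℝ) : ℝ := ⨆ s, (g s - 5 * (1 - dens T s))

lemma le_beta {g : Node → ℝ} (hg : Mart g) (T : Set Node) (s : Node) :
    g s - 5 * (1 - dens T s) ≤ beta T g := by
  refine le_ciSup (f := fun s => g s - 5 * (1 - dens T s)) ⟨2, ?_⟩ s
  rintro _ ⟨s, rfl⟩
  have := (dens_mem T s).2
  have := (abs_le.mp (hg.bdd s)).2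
  simp only; linarith

lemma exists_top {g : Node → ℝ} (hg : Mart g) {T : Set Node} (hT : Pos T) {δ : ℝ} (h0 : 0 < δ)
    (h1 : δ < 1 / 2) : ∃ T' ⊆ T, Pos T' ∧ ∀ s ∈ T', beta T g - δ ≤ g s := by
  set H : Node → ℝ := fun s => g s - 5 * (1 - dens T s) with hH
  have hle : ∀ s, H s ≤ beta T g := le_beta hg T
  have hβ : -(5 / 2) ≤ beta T g := by
    obtain ⟨s, hs⟩ := hT.dense (η := 1 / 10) (by norm_num)
    have := hle s
    have h2 := (abs_le.mp (hg.bdd s)).1
    simp only [hH] at this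
    linarith
  have hsub : ∀ s, beta T g - δ ≤ H s → s ∈ T := by
    intro s hs
    by_contra hc
    simp only [hH, dens_of_not_mem hc] at hs
    have h2 := (abs_le.mp (hg.bdd s)).2
    linarith
  let T' : Set Node := {s | beta T g - δ ≤ H s}
  have key : ∀ n s, δ * (1 - dn T' n s) ≤ beta T g - H s := by
    intro n
    induction n with
    | zero =>
      intro s
      by_cases h : s ∈ T'
      · simp only [dn, h, if_true]; linarith [hle s]
      · have h2 : ¬ (beta T g - δ ≤ H s) := h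
        simp only [dn, h, if_false]; push Not at h2; linarith
    | succ n ih =>
      intro s
      by_cases h : s ∈ T'
      · simp only [dn, h, if_true]
        have e : H s = (H (s ++ [false]) + H (s ++ [true])) / 2 := by
          simp only [hH]
          rw [hg.avg s, dens_of_mem (hsub s h)]; ring
        linarith [ih (s ++ [false]), ih (s ++ [true])]
      · have h2 : ¬ (beta T g - δ ≤ H s) := h
        simp only [dn, h, if_false]; push Not at h2; linarith
  refine ⟨T', fun s hs => hsub s hs, ?_, fun s hs => ?_⟩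
  · obtain ⟨s, hs⟩ := exists_lt_of_lt_ciSup (f := H) (show beta T g - δ / 2 < ⨆ s, H s by
      change beta T g - δ / 2 < beta T g
      linarith)
    refine ⟨s, lt_of_lt_of_le (show (0 : ℝ) < 1 / 2 by norm_num) (le_ciInf fun n => ?_)⟩
    have := key n s
    by_contra hc
    push Not at hc
    nlinarith
  · have h2 : beta T g - δ ≤ H s := hs
    have := (dens_mem T s).2
    simp only [hH] at h2
    linarith

lemma exists_flat {δ : ℝ} (h0 : 0 < δ) (h1 : δ < 1 / 2) (G : Set (Node → ℝ)) (hG : G.Finite) :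
    (∀ g ∈ G, Mart g) → ∀ T, Pos T → ∃ T' ⊆ T, Pos T' ∧ ∀ g ∈ G, ∃ β : ℝ, ∀ s ∈ T',
      β - δ ≤ g s ∧ g s ≤ β + 5 * (1 - dens T' s) := by
  induction G, hG using Set.Finite.induction_on with
  | empty => intro _ T hT; exact ⟨T, subset_rfl, hT, by simp⟩
  | @insert g G _ _ ih =>
    intro hM T hT
    obtain ⟨T₁, hs1, hp1, ht1⟩ := exists_top (hM g (Set.mem_insert _ _)) hT h0 h1
    obtain ⟨T₂, hs2, hp2, ht2⟩ := ih (fun g hg => hM g (Set.mem_insert_of_mem _ hg)) T₁ hp1
    refine ⟨T₂, hs2.trans hs1, hp2, fun g' hg' => ?_⟩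
    rcases hg' with rfl | hg'
    · refine ⟨beta T g', fun s hs => ⟨ht1 s (hs2 hs), ?_⟩⟩
      have a1 := le_beta (hM g' (Set.mem_insert _ _)) T s
      have a2 := dens_mono (hs2.trans hs1) s
      linarith
    · exact ht2 g' hg'

structure Fam (𝓕 : Set (Node → ℝ)) (ε : ℝ) : Prop where
  mart : ∀ g ∈ 𝓕, Mart g
  half : ∀ g ∈ 𝓕, ∀ g' ∈ 𝓕, (fun s => (g s - g' s) / 2) ∈ 𝓕
  sep : ∀ s, ∃ g ∈ 𝓕, ε ≤ g (s ++ [false]) - g (s ++ [true])

lemma key_step {𝓕 : Set (Node → ℝ)} {ε : ℝ} (hF : Fam 𝓕 ε) (hε : 0 < ε) (hε1 : ε ≤ 1)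
    {T : Set Node} (hT : Pos T) (P : Finset Node) :
    ∃ g ∈ 𝓕, ∃ α : ℝ, ∃ T' ⊆ T, Pos T' ∧ -3 ≤ α ∧ α ≤ 2 ∧ (∀ s ∈ P, g s ≤ α) ∧
      ∀ s ∈ T', α + ε / 32 ≤ g s := by
  have main : ∃ g ∈ 𝓕, ∃ α : ℝ, (∀ s ∈ P, g s ≤ α) ∧ α + ε / 16 ≤ beta T g := by
    by_contra hc
    push Not at hc
    let res : (Node → ℝ) → (P → ℝ) := fun g s => g s
    have hb : Bornology.IsBounded (res '' 𝓕) := by
      refine (Metric.isBounded_closedBall (x := (0 : P → ℝ)) (r := 2)).subset ?_
      rintro _ ⟨g, hg, rfl⟩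
      rw [mem_closedBall_zero_iff, pi_norm_le_iff_of_nonneg (by norm_num)]
      intro s
      exact (hF.mart g hg).bdd s
    have htb : TotallyBounded (res '' 𝓕) :=
      hb.isCompact_closure.totallyBounded.subset subset_closure
    obtain ⟨t, ht, htf, hcov⟩ := Metric.finite_approx_of_totallyBounded htb (ε / 16) (by positivity)
    obtain ⟨G, hG, hGf, hGt⟩ := Set.Finite.exists_subset_finite_image_eq htf ht
    obtain ⟨T', hsub, hpos, hflat⟩ := exists_flat (δ := ε / 16) (by positivity) (by linarith) G hGf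
      (fun g hg => hF.mart g (hG hg)) T hT
    obtain ⟨s, hs⟩ := hpos.dense (η := ε / 400) (by positivity)
    have hsT : s ∈ T' := mem_of_dens_pos (by linarith)
    have e := dens_of_mem hsT
    have c0 : 1 - ε / 200 ≤ dens T' (s ++ [false]) := by
      linarith [(dens_mem T' (s ++ [true])).2]
    have c1 : 1 - ε / 200 ≤ dens T' (s ++ [true]) := by
      linarith [(dens_mem T' (s ++ [false])).2]
    obtain ⟨g, hg, hsep⟩ := hF.sep s
    have hmem := hcov (Set.mem_image_of_mem res hg)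
    simp only [Set.mem_iUnion] at hmem
    obtain ⟨y, hy, hball⟩ := hmem
    rw [← hGt] at hy
    obtain ⟨g', hg', rfl⟩ := hy
    have hclose : ∀ u ∈ P, |g u - g' u| ≤ ε / 16 := by
      intro u hu
      have h1 := Metric.mem_ball.mp hball
      have h2 := dist_le_pi_dist (res g) (res g') ⟨u, hu⟩
      rw [Real.dist_eq] at h2
      exact h2.trans h1.le
    have b1 := hc _ (hF.half g hg g' (hG hg')) (ε / 32) (fun u hu => by
      have := (abs_le.mp (hclose u hu)).2
      linarith)
    have b2 := hc _ (hF.half g' (hG hg') g hg) (ε / 32) (fun u hu => by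
      have := (abs_le.mp (hclose u hu)).1
      linarith)
    have b3 := le_beta (hF.mart _ (hF.half g hg g' (hG hg'))) T (s ++ [false])
    have b4 := le_beta (hF.mart _ (hF.half g' (hG hg') g hg)) T (s ++ [true])
    have d0 := dens_mono hsub (s ++ [false])
    have d1 := dens_mono hsub (s ++ [true])
    obtain ⟨β, hβ⟩ := hflat g' hg'
    have f0 := (hβ (s ++ [false]) (mem_of_dens_pos (by linarith))).2
    have f1 := (hβ (s ++ [true]) (mem_of_dens_pos (by linarith))).1
    linarith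
  obtain ⟨g, hg, α, h1, h2⟩ := main
  obtain ⟨T', hsub, hpos, htop⟩ := exists_top (hF.mart g hg) hT (δ := ε / 32) (by positivity)
    (by linarith)
  obtain ⟨s₀, hs₀⟩ := hpos
  have hs₀' := htop s₀ (mem_of_dens_pos hs₀)
  have hb := (abs_le.mp ((hF.mart g hg).bdd s₀)).2
  refine ⟨g, hg, max α (-3), T', hsub, ⟨s₀, hs₀⟩, le_max_right _ _,
    max_le (by linarith) (by norm_num), fun s hs => (h1 s hs).trans (le_max_left _ _),
    fun s hs => ?_⟩
  have a1 := htop s hs
  have a2 := (abs_le.mp ((hF.mart g hg).bdd s)).1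
  rcases max_choice α (-3) with e | e <;> rw [e] <;> linarith

theorem exists_pattern {𝓕 : Set (Node → ℝ)} {ε : ℝ} (hF : Fam 𝓕 ε) (hε : 0 < ε) (hε1 : ε ≤ 1) :
    ∃ (A B : ℝ) (s : ℕ → Node) (g : ℕ → Node → ℝ), A < B ∧ (∀ k, g k ∈ 𝓕) ∧
      ∀ i j, (i < j → g j (s i) ≤ A) ∧ (j ≤ i → B ≤ g j (s i)) := by
  classical
  have step : ∀ σ : {T : Set Node // Pos T} × Finset Node,
      ∃ (g : Node → ℝ) (α : ℝ) (T' : {T : Set Node // Pos T}) (s : Node), g ∈ 𝓕 ∧ T'.1 ⊆ σ.1.1 ∧
        s ∈ T'.1 ∧ -3 ≤ α ∧ α ≤ 2 ∧ (∀ u ∈ σ.2, g u ≤ α) ∧ ∀ u ∈ T'.1, α + ε / 32 ≤ g u := by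
    intro σ
    obtain ⟨g, hg, α, T', hsub, hpos, h1, h2, h3, h4⟩ := key_step hF hε hε1 σ.1.2 σ.2
    obtain ⟨s, hs⟩ := hpos
    exact ⟨g, α, ⟨T', s, hs⟩, s, hg, hsub, mem_of_dens_pos hs, h1, h2, h3, h4⟩
  choose g α T' s hg hsub hs h1 h2 h3 h4 using step
  let σ : ℕ → {T : Set Node // Pos T} × Finset Node := fun n =>
    Nat.rec (⟨Set.univ, Pos.univ⟩, ∅) (fun _ x => (T' x, insert (s x) x.2)) n
  have hσ : ∀ n, σ (n + 1) = (T' (σ n), insert (s (σ n)) (σ n).2) := fun n => rfl
  have hin : ∀ i j, i < j → s (σ i) ∈ (σ j).2 := by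
    intro i j hij
    induction j, hij using Nat.le_induction with
    | base => rw [hσ]; exact Finset.mem_insert_self _ _
    | succ j _ ih => rw [hσ]; exact Finset.mem_insert_of_mem ih
  have hT : ∀ j i, j ≤ i → (T' (σ i)).1 ⊆ (T' (σ j)).1 := by
    intro j i hij
    induction i, hij using Nat.le_induction with
    | base => exact subset_rfl
    | succ i _ ih => exact (hsub (σ (i + 1))).trans ih
  obtain ⟨a, -, φ, hφ, hlim⟩ := tendsto_subseq_of_bounded (Metric.isBounded_Icc (-3 : ℝ) 2)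
    (x := fun n => α (σ n)) (fun n => ⟨h1 _, h2 _⟩)
  obtain ⟨N, hN⟩ := Metric.tendsto_atTop.mp hlim (ε / 100) (by positivity)
  refine ⟨a + ε / 100, a - ε / 100 + ε / 32, fun i => s (σ (φ (i + N))),
    fun j => g (σ (φ (j + N))), by linarith, fun k => hg _, fun i j => ?_⟩
  have hj := hN (j + N) (by omega)
  rw [Real.dist_eq, abs_lt] at hj
  simp only [Function.comp] at hj
  constructor
  · intro hij
    have := h3 _ _ (hin (φ (i + N)) (φ (j + N)) (hφ (by omega)))
    linarith [hj.2]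
  · intro hij
    have := h4 _ _ (hT (φ (j + N)) (φ (i + N)) (hφ.monotone (by omega)) (hs _))
    linarith [hj.1]

end Vale.Agent.P125
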