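import Mathlib
import Vale.Agent.P125.Defs

open Finset

namespace Vale.Agent.P125

variable {X : Type*} [NormedAddCommGroup X] [NormedSpace ℝ X]

/-- dyadic `ε`-trees of depth `n` with root `x` in the ball of radius two -/
def Tree (ε : ℝ) : ℕ → X → Prop
  | 0, x => ‖x‖ ≤ 2
  | n + 1, x => ‖x‖ ≤ 2 ∧ ∃ y z : X, x = (1 / 2 : ℝ) • (y + z) ∧ ε ≤ ‖y - z‖ ∧
      Tree ε n y ∧ Tree ε n z

lemma Tree.norm_le {ε : ℝ} {n : ℕ} {x : X} (h : Tree ε n x) : ‖x‖ ≤ 2 := by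
  cases n with
  | zero => exact h
  | succ n => exact h.1

lemma Tree.pred {ε : ℝ} : ∀ {n : ℕ} {x : X}, Tree ε (n + 1) x → Tree ε n x
  | 0, _, h => h.1
  | _ + 1, _, ⟨h, y, z, h1, h2, h3, h4⟩ => ⟨h, y, z, h1, h2, h3.pred, h4.pred⟩

lemma Tree.mono {ε : ℝ} {n k : ℕ} {x : X} (h : Tree ε n x) (hk : k ≤ n) : Tree ε k x := by
  induction n, hk using Nat.le_induction with
  | base => exact h
  | succ n _ ih => exact ih h.pred

lemma Tree.neg {ε : ℝ} : ∀ {n : ℕ} {x : X}, Tree ε n x → Tree ε n (-x)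
  | 0, x, h => by
      change ‖-x‖ ≤ 2
      rw [norm_neg]; exact h
  | _ + 1, x, ⟨h, y, z, h1, h2, h3, h4⟩ =>
      ⟨by rw [norm_neg]; exact h, -y, -z, by rw [h1, ← smul_neg, neg_add],
        by rw [neg_sub_neg, norm_sub_rev]; exact h2, h3.neg, h4.neg⟩

lemma norm_mid_le {y z : X} (hy : ‖y‖ ≤ 2) (hz : ‖z‖ ≤ 2) : ‖(1 / 2 : ℝ) • (y + z)‖ ≤ 2 := by
  rw [norm_smul]
  have := norm_add_le y z
  rw [Real.norm_eq_abs, abs_of_pos (by norm_num)]
  linarith

/-- a bounded function with a midpoint gap at distance `ε` -/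
lemma exists_mid {ε : ℝ} {n : ℕ} (hn : ∀ x : X, ¬ Tree ε n x) :
    ∃ (g : X → ℝ) (δ : ℝ), 0 < δ ∧ (∀ x, 0 ≤ g x ∧ g x ≤ 1) ∧ (∀ x, g (-x) = g x) ∧
      ∀ y z, ‖y‖ ≤ 2 → ‖z‖ ≤ 2 → ε ≤ ‖y - z‖ →
        g ((1 / 2 : ℝ) • (y + z)) ≤ (g y + g z) / 2 - δ := by
  classical
  let h : X → ℕ := fun x => Nat.findGreatest (fun k => Tree ε k x) n
  have hspec : ∀ x, ‖x‖ ≤ 2 → Tree ε (h x) x := fun x hx =>
    Nat.findGreatest_spec (P := fun k => Tree ε k x) (Nat.zero_le n) hx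
  have hle : ∀ x, h x ≤ n := fun x => Nat.findGreatest_le n
  have hge : ∀ x k, Tree ε k x → k ≤ h x := fun x k hk => by
    apply Nat.le_findGreatest _ hk
    by_contra hc
    exact hn x (hk.mono (by omega))
  refine ⟨fun x => (1 / 3) ^ h x, (1 / 3) ^ n / 3, by positivity, fun x => ⟨by positivity,
    pow_le_one₀ (by norm_num) (by norm_num)⟩, fun x => ?_, fun y z hy hz hyz => ?_⟩
  · have : (fun k => Tree ε k (-x)) = fun k => Tree ε k x := by
      funext k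
      exact propext ⟨fun h => by simpa using h.neg, fun h => h.neg⟩
    simp only [h, this]
  · have h1 : Tree ε (min (h y) (h z) + 1) ((1 / 2 : ℝ) • (y + z)) :=
      ⟨norm_mid_le hy hz, y, z, rfl, hyz, (hspec y hy).mono (min_le_left _ _),
        (hspec z hz).mono (min_le_right _ _)⟩
    have h2 := hge _ _ h1
    have h3 : ((1 : ℝ) / 3) ^ h ((1 / 2 : ℝ) • (y + z)) ≤ (1 / 3) ^ (min (h y) (h z) + 1) :=
      pow_le_pow_of_le_one (by norm_num) (by norm_num) h2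
    have h4 : ((1 : ℝ) / 3) ^ n ≤ (1 / 3) ^ h y :=
      pow_le_pow_of_le_one (by norm_num) (by norm_num) (hle y)
    have h5 : ((1 : ℝ) / 3) ^ n ≤ (1 / 3) ^ h z :=
      pow_le_pow_of_le_one (by norm_num) (by norm_num) (hle z)
    have h6 : (0 : ℝ) ≤ (1 / 3) ^ n := by positivity
    rw [pow_succ] at h3
    simp only
    rcases min_choice (h y) (h z) with e | e <;> rw [e] at h3 <;> linarith

/-- values of convex decompositions -/
def decomp (g : X → ℝ) (x : X) : Set ℝ :=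
  {r | ∃ (ι : Type) (_ : Fintype ι) (w : ι → ℝ) (v : ι → X), (∀ i, 0 ≤ w i) ∧ ∑ i, w i = 1 ∧
    (∀ i, ‖v i‖ ≤ 2) ∧ ∑ i, w i • v i = x ∧ r = ∑ i, w i * g (v i)}

lemma decomp_self (g : X → ℝ) {x : X} (hx : ‖x‖ ≤ 2) : g x ∈ decomp g x :=
  ⟨Unit, inferInstance, fun _ => 1, fun _ => x, by simp, by simp, by simpa using hx, by simp,
    by simp⟩

lemma decomp_nonneg {g : X → ℝ} (hg : ∀ x, 0 ≤ g x) {x : X} {r : ℝ} (hr : r ∈ decomp g x) :
    0 ≤ r := by
  obtain ⟨ι, _, w, v, hw, -, -, -, rfl⟩ := hr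
  exact Finset.sum_nonneg fun i _ => mul_nonneg (hw i) (hg _)

lemma decomp_conv {g : X → ℝ} {x y : X} {r s a b : ℝ} (hr : r ∈ decomp g x)
    (hs : s ∈ decomp g y) (ha : 0 ≤ a) (hb : 0 ≤ b) (hab : a + b = 1) :
    a * r + b * s ∈ decomp g (a • x + b • y) := by
  obtain ⟨ι, _, w, v, hw, hw1, hv, rfl, rfl⟩ := hr
  obtain ⟨κ, _, w', v', hw', hw1', hv', rfl, rfl⟩ := hs
  refine ⟨ι ⊕ κ, inferInstance, Sum.elim (fun i => a * w i) (fun j => b * w' j), Sum.elim v v',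
    ?_, ?_, ?_, ?_, ?_⟩
  · rintro (i | j)
    · exact mul_nonneg ha (hw i)
    · exact mul_nonneg hb (hw' j)
  · simp [← Finset.mul_sum, hw1, hw1', hab]
  · rintro (i | j)
    · exact hv i
    · exact hv' j
  · simp [Finset.smul_sum, mul_smul]
  · simp [Finset.mul_sum, mul_assoc]

lemma decomp_neg {g : X → ℝ} (hg : ∀ x, g (-x) = g x) {x : X} {r : ℝ} (hr : r ∈ decomp g x) :
    r ∈ decomp g (-x) := by
  obtain ⟨ι, _, w, v, hw, hw1, hv, rfl, rfl⟩ := hr
  exact ⟨ι, inferInstance, w, fun i => -v i, hw, hw1, fun i => by simpa using hv i,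
    by simp, by simp [hg]⟩

lemma decomp_mid {g : X → ℝ} {ε δ : ℝ} (hε : 0 ≤ ε) (hδ : 0 < δ)
    (hg : ∀ y z, ‖y‖ ≤ 2 → ‖z‖ ≤ 2 → ε ≤ ‖y - z‖ →
        g ((1 / 2 : ℝ) • (y + z)) ≤ (g y + g z) / 2 - δ)
    {x y : X} {r s : ℝ} (hr : r ∈ decomp g x) (hs : s ∈ decomp g y) :
    ∃ u ∈ decomp g ((1 / 2 : ℝ) • (x + y)), u ≤ (r + s) / 2 - δ * (‖x - y‖ - ε) / 4 := by
  classical
  obtain ⟨ι, _, w, v, hw, hw1, hv, rfl, rfl⟩ := hr
  obtain ⟨κ, _, w', v', hw', hw1', hv', rfl, rfl⟩ := hs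
  let V : (ι × κ) × Bool → X := fun e =>
    if ε ≤ ‖v e.1.1 - v' e.1.2‖ then (1 / 2 : ℝ) • (v e.1.1 + v' e.1.2)
    else if e.2 then v e.1.1 else v' e.1.2
  have e1 : ∑ i, w i • v i = ∑ e : ι × κ, (w e.1 * w' e.2) • v e.1 := by
    rw [Fintype.sum_prod_type]
    refine Finset.sum_congr rfl fun i _ => ?_
    simp only
    rw [← Finset.sum_smul, ← Finset.mul_sum, hw1', mul_one]
  have e2 : ∑ j, w' j • v' j = ∑ e : ι × κ, (w e.1 * w' e.2) • v' e.2 := by
    rw [Fintype.sum_prod_type_right]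
    refine Finset.sum_congr rfl fun j _ => ?_
    simp only
    rw [← Finset.sum_smul, ← Finset.sum_mul, hw1, one_mul]
  have e3 : ∑ i, w i * g (v i) = ∑ e : ι × κ, (w e.1 * w' e.2) * g (v e.1) := by
    rw [Fintype.sum_prod_type]
    refine Finset.sum_congr rfl fun i _ => ?_
    simp only
    rw [← Finset.sum_mul, ← Finset.mul_sum, hw1', mul_one]
  have e4 : ∑ j, w' j * g (v' j) = ∑ e : ι × κ, (w e.1 * w' e.2) * g (v' e.2) := by
    rw [Fintype.sum_prod_type_right]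
    refine Finset.sum_congr rfl fun j _ => ?_
    simp only
    rw [← Finset.sum_mul, ← Finset.sum_mul, hw1, one_mul]
  have e5 : ∑ e : ι × κ, w e.1 * w' e.2 = 1 := by
    rw [Fintype.sum_prod_type, ← Finset.sum_mul_sum, hw1, hw1', one_mul]
  have hww : ∀ e : ι × κ, 0 ≤ w e.1 * w' e.2 := fun e => mul_nonneg (hw _) (hw' _)
  refine ⟨∑ e : (ι × κ) × Bool, (w e.1.1 * w' e.1.2 / 2) * g (V e),
    ⟨(ι × κ) × Bool, inferInstance, fun e => w e.1.1 * w' e.1.2 / 2, V,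
      fun e => by have := hww e.1; positivity, ?_, ?_, ?_, rfl⟩, ?_⟩
  · rw [Fintype.sum_prod_type, ← e5]
    refine Finset.sum_congr rfl fun e _ => ?_
    rw [Fintype.sum_bool]; ring
  · intro e
    simp only [V]
    split_ifs
    · exact norm_mid_le (hv _) (hv' _)
    · exact hv _
    · exact hv' _
  · rw [e1, e2, ← Finset.sum_add_distrib, Finset.smul_sum, Fintype.sum_prod_type]
    refine Finset.sum_congr rfl fun e _ => ?_
    rw [Fintype.sum_bool]
    simp only [V]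
    by_cases h1 : ε ≤ ‖v e.1 - v' e.2‖
    · simp only [h1, if_true]; module
    · simp only [h1, if_false, if_true, Bool.false_eq_true]; module
  · have hd : ‖∑ i, w i • v i - ∑ j, w' j • v' j‖
        ≤ ∑ e : ι × κ, (w e.1 * w' e.2) * ‖v e.1 - v' e.2‖ := by
      rw [e1, e2, ← Finset.sum_sub_distrib]
      refine (norm_sum_le _ _).trans (le_of_eq ?_)
      refine Finset.sum_congr rfl fun e _ => ?_
      rw [← smul_sub, norm_smul, Real.norm_eq_abs, abs_of_nonneg (hww e)]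
    have hpt : ∀ e : ι × κ, ∑ b : Bool, (w e.1 * w' e.2 / 2) * g (V (e, b))
        ≤ (w e.1 * w' e.2) * ((g (v e.1) + g (v' e.2)) / 2 - δ * (‖v e.1 - v' e.2‖ - ε) / 4) := by
      intro e
      rw [Fintype.sum_bool]
      have h4 : ‖v e.1 - v' e.2‖ ≤ 4 := by
        have := norm_sub_le (v e.1) (v' e.2)
        linarith [hv e.1, hv' e.2]
      have key : g (V (e, true)) / 2 + g (V (e, false)) / 2
          ≤ (g (v e.1) + g (v' e.2)) / 2 - δ * (‖v e.1 - v' e.2‖ - ε) / 4 := by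
        simp only [V]
        by_cases h1 : ε ≤ ‖v e.1 - v' e.2‖
        · simp only [h1, if_true]
          have := hg _ _ (hv e.1) (hv' e.2) h1
          nlinarith
        · simp only [h1, if_false, if_true, Bool.false_eq_true]
          push Not at h1
          nlinarith
      nlinarith [mul_le_mul_of_nonneg_left key (hww e)]
    rw [Fintype.sum_prod_type]
    refine (Finset.sum_le_sum fun e _ => hpt e).trans ?_
    have : ∑ e : ι × κ, (w e.1 * w' e.2)
          * ((g (v e.1) + g (v' e.2)) / 2 - δ * (‖v e.1 - v' e.2‖ - ε) / 4)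
        = (∑ e : ι × κ, (w e.1 * w' e.2) * g (v e.1)
            + ∑ e : ι × κ, (w e.1 * w' e.2) * g (v' e.2)) / 2
          - δ * (∑ e : ι × κ, (w e.1 * w' e.2) * ‖v e.1 - v' e.2‖
            - (∑ e : ι × κ, w e.1 * w' e.2) * ε) / 4 := by
      rw [← Finset.sum_add_distrib, Finset.sum_mul, ← Finset.sum_sub_distrib, Finset.mul_sum,
        Finset.sum_div, Finset.sum_div, ← Finset.sum_sub_distrib]
      exact Finset.sum_congr rfl fun e _ => by ring
    rw [this, e3, e4, e5]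
    have := mul_le_mul_of_nonneg_left hd hδ.le
    linarith

/-- a bounded convex function with a gap at distance larger than `ε` -/
lemma exists_conv {ε : ℝ} (hε : 0 ≤ ε) {n : ℕ} (hn : ∀ x : X, ¬ Tree ε n x) :
    ∃ (G : X → ℝ) (δ : ℝ), 0 < δ ∧ (∀ x, 0 ≤ G x ∧ G x ≤ 1) ∧ (∀ x, G (-x) = G x) ∧
      (∀ x y a b, ‖x‖ ≤ 2 → ‖y‖ ≤ 2 → 0 ≤ a → 0 ≤ b → a + b = 1 →
        G (a • x + b • y) ≤ a * G x + b * G y) ∧
      ∀ x y, ‖x‖ ≤ 2 → ‖y‖ ≤ 2 →
        G ((1 / 2 : ℝ) • (x + y)) ≤ (G x + G y) / 2 - δ * (‖x - y‖ - ε) := by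
  obtain ⟨g, δ, hδ, hg, hneg, hmid⟩ := exists_mid hn
  have hbdd : ∀ x, BddBelow (decomp g x) := fun x =>
    ⟨0, fun r hr => decomp_nonneg (fun x => (hg x).1) hr⟩
  have hne : ∀ x, ‖x‖ ≤ 2 → (decomp g x).Nonempty := fun x hx => ⟨_, decomp_self g hx⟩
  have two : ∀ (x y : X) (c a b : ℝ), ‖x‖ ≤ 2 → ‖y‖ ≤ 2 → 0 ≤ a → 0 ≤ b →
      (∀ r ∈ decomp g x, ∀ s ∈ decomp g y, c ≤ a * r + b * s) →
      c ≤ a * sInf (decomp g x) + b * sInf (decomp g y) := by
    intro x y c a b hx hy ha hb h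
    refine le_of_forall_pos_le_add fun η hη => ?_
    have hη' : 0 < η / (a + b + 1) := by positivity
    obtain ⟨r, hr, hr'⟩ := Real.lt_sInf_add_pos (hne x hx) hη'
    obtain ⟨s, hs, hs'⟩ := Real.lt_sInf_add_pos (hne y hy) hη'
    have h1 := h r hr s hs
    have h2 : (a + b + 1) * (η / (a + b + 1)) = η := by field_simp
    nlinarith [mul_le_mul_of_nonneg_left hr'.le ha, mul_le_mul_of_nonneg_left hs'.le hb]
  refine ⟨fun x => min 1 (sInf (decomp g x)), δ / 4, by positivity, fun x => ⟨?_, min_le_left _ _⟩,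
    fun x => ?_, fun x y a b hx hy ha hb hab => ?_, fun x y hx hy => ?_⟩
  · exact le_min zero_le_one
      (Real.sInf_nonneg fun r hr => decomp_nonneg (fun x => (hg x).1) hr)
  · have : decomp g (-x) = decomp g x :=
      Set.Subset.antisymm (fun r hr => by simpa using decomp_neg hneg hr)
        (fun r hr => decomp_neg hneg hr)
    simp only [this]
  · have h1 : ∀ x, ‖x‖ ≤ 2 → min 1 (sInf (decomp g x)) = sInf (decomp g x) := fun x hx =>
      min_eq_right ((csInf_le (hbdd x) (decomp_self g hx)).trans (hg x).2)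
    simp only
    rw [h1 x hx, h1 y hy]
    refine (min_le_right _ _).trans (two x y _ a b hx hy ha hb fun r hr s hs => ?_)
    exact csInf_le (hbdd _) (decomp_conv hr hs ha hb hab)
  · have h1 : ∀ x, ‖x‖ ≤ 2 → min 1 (sInf (decomp g x)) = sInf (decomp g x) := fun x hx =>
      min_eq_right ((csInf_le (hbdd x) (decomp_self g hx)).trans (hg x).2)
    simp only
    rw [h1 x hx, h1 y hy]
    refine (min_le_right _ _).trans ?_
    have := two x y (sInf (decomp g ((1 / 2 : ℝ) • (x + y))) + δ / 4 * (‖x - y‖ - ε)) (1 / 2)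
      (1 / 2) hx hy (by norm_num) (by norm_num) fun r hr s hs => by
        obtain ⟨u, hu, hu'⟩ := decomp_mid hε hδ hmid hr hs
        have := csInf_le (hbdd _) hu
        linarith
    linarith

lemma exists_Phi (h : ∀ ε : ℝ, 0 < ε → ∃ n, ∀ x : X, ¬ Tree ε n x) :
    ∃ F : X → ℝ, (∀ x, 0 ≤ F x ∧ F x ≤ 1 / 2) ∧ (∀ x, F (-x) = F x) ∧
      (∀ x y a b, ‖x‖ ≤ 2 → ‖y‖ ≤ 2 → 0 ≤ a → 0 ≤ b → a + b = 1 →
        F (a • x + b • y) ≤ a * F x + b * F y) ∧
      ∀ ε : ℝ, 0 < ε → ∃ η : ℝ, 0 < η ∧ ∀ x y, ‖x‖ ≤ 2 → ‖y‖ ≤ 2 → ε ≤ ‖x - y‖ →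
        F ((1 / 2 : ℝ) • (x + y)) ≤ (F x + F y) / 2 - η := by
  have hk : ∀ k : ℕ, (0 : ℝ) < 1 / (k + 1) := fun k => by positivity
  choose n hn using fun k : ℕ => h _ (hk k)
  choose G δ hδ hG hneg hconv hmid using fun k : ℕ => exists_conv (hk k).le (hn k)
  let c : ℕ → ℝ := fun k => (1 / 2) / 2 / 2 ^ k
  have hc0 : ∀ k, 0 < c k := fun k => by positivity
  have hc : HasSum c (1 / 2) := hasSum_geometric_two' (1 / 2)
  have hs : ∀ x, Summable fun k => c k * G k x := fun x =>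
    Summable.of_nonneg_of_le (fun k => mul_nonneg (hc0 k).le (hG k x).1)
      (fun k => by nlinarith [hc0 k, (hG k x).2]) hc.summable
  refine ⟨fun x => ∑' k, c k * G k x, fun x => ⟨?_, ?_⟩, fun x => by simp [hneg],
    fun x y a b hx hy ha hb hab => ?_, fun ε hε => ?_⟩
  · exact tsum_nonneg fun k => mul_nonneg (hc0 k).le (hG k x).1
  · exact hasSum_le (fun k => by nlinarith [hc0 k, (hG k x).2]) (hs x).hasSum hc
  · refine hasSum_le (fun k => ?_) (hs _).hasSum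
      (((hs x).hasSum.mul_left a).add ((hs y).hasSum.mul_left b))
    have := mul_le_mul_of_nonneg_left (hconv k x y a b hx hy ha hb hab) (hc0 k).le
    linarith
  · obtain ⟨k₀, hk₀⟩ := exists_nat_one_div_lt (half_pos hε)
    refine ⟨c k₀ * (δ k₀ * (ε / 2)), by have := hc0 k₀; have := hδ k₀; positivity,
      fun x y hx hy hxy => ?_⟩
    have h1 : HasSum (fun k => if k = k₀ then c k₀ * (δ k₀ * (ε / 2)) else 0)
        (c k₀ * (δ k₀ * (ε / 2))) := hasSum_ite_eq k₀ _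
    refine hasSum_le (fun k => ?_) (hs _).hasSum
      ((((hs x).hasSum.add (hs y).hasSum).div_const 2).sub h1)
    split_ifs with hk
    · subst hk
      have h2 := mul_le_mul_of_nonneg_left (hmid k x y hx hy) (hc0 k).le
      have h3 : δ k * (ε / 2) ≤ δ k * (‖x - y‖ - 1 / (k + 1)) :=
        mul_le_mul_of_nonneg_left (by linarith) (hδ k).le
      have h4 := mul_le_mul_of_nonneg_left h3 (hc0 k).le
      linarith
    · have h2 := mul_le_mul_of_nonneg_left
        (hconv k x y (1 / 2) (1 / 2) hx hy (by norm_num) (by norm_num) (by norm_num)) (hc0 k).le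
      rw [← smul_add] at h2
      linarith

theorem enflo (h : ∀ ε : ℝ, 0 < ε → ∃ n, ∀ x : X, ¬ Tree ε n x) :
    ∃ N : Seminorm ℝ X, IsEquivalentNorm N ∧ IsUniformlyConvex N := by
  obtain ⟨F, hF, hneg, hconv, hmid⟩ := exists_Phi h
  let A : Set X := {x | ‖x‖ + F x ≤ 1}
  have hA1 : ∀ x ∈ A, ‖x‖ ≤ 1 := fun x hx => by
    have h1 : ‖x‖ + F x ≤ 1 := hx
    linarith [(hF x).1]
  have hnc : ∀ (x y : X) (a b : ℝ), 0 ≤ a → 0 ≤ b → ‖a • x + b • y‖ ≤ a * ‖x‖ + b * ‖y‖ := by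
    intro x y a b ha hb
    refine (norm_add_le _ _).trans (le_of_eq ?_)
    rw [norm_smul, norm_smul, Real.norm_eq_abs, Real.norm_eq_abs, abs_of_nonneg ha,
      abs_of_nonneg hb]
  have hcv : Convex ℝ A := by
    intro x hx y hy a b ha hb hab
    have h1 : ‖x‖ + F x ≤ 1 := hx
    have h2 : ‖y‖ + F y ≤ 1 := hy
    have h3 := hconv x y a b (by linarith [hA1 x hx]) (by linarith [hA1 y hy]) ha hb hab
    have h4 := hnc x y a b ha hb
    change ‖a • x + b • y‖ + F (a • x + b • y) ≤ 1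
    nlinarith [mul_le_mul_of_nonneg_left h1 ha, mul_le_mul_of_nonneg_left h2 hb]
  have hsub : Metric.closedBall (0 : X) (1 / 2) ⊆ A := fun x hx => by
    have h1 : ‖x‖ ≤ 1 / 2 := by simpa using hx
    change ‖x‖ + F x ≤ 1
    linarith [(hF x).2]
  have hsub' : A ⊆ Metric.closedBall (0 : X) 1 := fun x hx => by simpa using hA1 x hx
  have habs0 : Absorbent ℝ (Metric.closedBall (0 : X) (1 / 2)) :=
    absorbent_nhds_zero (Metric.closedBall_mem_nhds 0 (by norm_num))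
  have habs : Absorbent ℝ A := habs0.mono hsub
  have hbal : Balanced ℝ A := (balanced_iff_neg_mem hcv).mpr fun x hx => by
    have h1 : ‖x‖ + F x ≤ 1 := hx
    change ‖-x‖ + F (-x) ≤ 1
    rwa [norm_neg, hneg]
  have h0A : (0 : X) ∈ A := hsub (Metric.mem_closedBall_self (by norm_num))
  let N : Seminorm ℝ X := gaugeSeminorm hbal hcv habs
  have hN : ∀ x, N x = gauge A x := fun x => rfl
  have hlow : ∀ x, ‖x‖ ≤ N x := fun x => by
    have := gauge_mono habs hsub' x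
    rwa [gauge_closedBall zero_le_one, div_one] at this
  have hup : ∀ x, N x ≤ 2 * ‖x‖ := fun x => by
    have := gauge_mono habs0 hsub x
    rw [gauge_closedBall (by norm_num)] at this
    rw [hN]; linarith
  refine ⟨N, ⟨1, 2, one_pos, two_pos, fun x => ⟨by simpa using hlow x, hup x⟩⟩,
    fun ε hε _ => ?_⟩
  obtain ⟨η₀, hη₀, hη⟩ := hmid (ε / 4) (by positivity)
  set η := min η₀ 1 with hηd
  have hη1 : η ≤ 1 := min_le_right _ _
  have hη2 : η ≤ η₀ := min_le_left _ _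
  have hη3 : 0 < η := lt_min hη₀ one_pos
  set t := η / 4 with ht
  have ht0 : 0 < t := by positivity
  refine ⟨t / 4, by positivity, fun x y hx hy hxy => ?_⟩
  set s := 1 - t / 4 with hs
  have hs0 : 1 / 2 ≤ s := by linarith
  have hs1 : s < 1 := by linarith
  have hin : ∀ x, N x ≤ 1 → s • x ∈ A := fun x hx => by
    apply setOfPred_gauge_lt_one_subset_self hcv h0A habs
    change N (s • x) < 1
    rw [map_smul_eq_mul, Real.norm_eq_abs, abs_of_pos (by linarith)]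
    nlinarith [apply_nonneg N x]
  have hx' := hin x hx
  have hy' := hin y hy
  have hd : ε / 4 ≤ ‖s • x - s • y‖ := by
    rw [← smul_sub, norm_smul, Real.norm_eq_abs, abs_of_pos (by linarith)]
    have := hup (x - y)
    nlinarith [norm_nonneg (x - y)]
  have h1 := hη _ _ (by linarith [hA1 _ hx']) (by linarith [hA1 _ hy']) hd
  set m := (1 / 2 : ℝ) • (s • x + s • y) with hm
  have hmn : ‖m‖ ≤ (‖s • x‖ + ‖s • y‖) / 2 := by
    have := hnc (s • x) (s • y) (1 / 2) (1 / 2) (by norm_num) (by norm_num)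
    rw [← smul_add] at this
    linarith
  have hx2 : ‖s • x‖ + F (s • x) ≤ 1 := hx'
  have hy2 : ‖s • y‖ + F (s • y) ≤ 1 := hy'
  have h2 : ‖m‖ + F m ≤ 1 - η := by linarith
  have hm1 : ‖m‖ ≤ 1 := by linarith [hA1 _ hx', hA1 _ hy']
  have h2m : ‖(2 : ℝ) • m‖ ≤ 2 := by
    rw [norm_smul, Real.norm_eq_abs, abs_of_pos two_pos]; linarith
  have h3 := hconv m ((2 : ℝ) • m) (1 - t) t (by linarith) h2m (by linarith) ht0.le (by ring)
  have h4 := hnc m ((2 : ℝ) • m) (1 - t) t (by linarith) ht0.le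
  have h5 : (1 - t) • m + t • (2 : ℝ) • m ∈ A := by
    change ‖(1 - t) • m + t • (2 : ℝ) • m‖ + F ((1 - t) • m + t • (2 : ℝ) • m) ≤ 1
    have a1 := mul_le_mul_of_nonneg_left h2 (show 0 ≤ 1 - t by linarith)
    have a2 := mul_le_mul_of_nonneg_left h2m ht0.le
    have a3 := mul_le_mul_of_nonneg_left (hF ((2 : ℝ) • m)).2 ht0.le
    nlinarith
  have h6 : N ((1 - t) • m + t • (2 : ℝ) • m) ≤ 1 := gauge_le_one_of_mem h5
  have e : (1 - t) • m + t • (2 : ℝ) • m = ((1 + t) * s) • ((1 / 2 : ℝ) • (x + y)) := by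
    rw [hm]; module
  rw [e, map_smul_eq_mul, Real.norm_eq_abs, abs_of_pos (by positivity)] at h6
  have h7 : 1 + t / 2 ≤ (1 + t) * s := by rw [hs]; nlinarith
  have h8 := apply_nonneg N ((1 / 2 : ℝ) • (x + y))
  by_contra hc
  push Not at hc
  nlinarith [mul_le_mul_of_nonneg_right h7 h8]

end Vale.Agent.P125
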