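import Vale.Agent.P125.Chain
import Vale.Agent.P125.Defs

open Finset

namespace Vale.Agent.P125

lemma exists_L {p : ℝ} (hp : 1 < p) (D : ℝ) : ∃ L : ℕ, 1 ≤ L ∧ D * L < (L : ℝ) ^ p := by
  have h1 := (tendsto_rpow_atTop (y := p - 1) (by linarith)).comp tendsto_natCast_atTop_atTop
  obtain ⟨L, h2, h3⟩ := ((h1.eventually_gt_atTop D).and (Filter.eventually_ge_atTop 1)).exists
  refine ⟨L, h3, ?_⟩
  have hL : (0 : ℝ) < L := by exact_mod_cast h3
  have : (L : ℝ) ^ p = (L : ℝ) ^ (p - 1) * L := by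
    rw [Real.rpow_sub_one hL.ne']; field_simp
  rw [this]
  exact mul_lt_mul_of_pos_right h2 hL

theorem not_sys {N : E0 → ℝ} {p C θ : ℝ} (hp : 1 < p) (hC : 0 ≤ C) (hθ : 0 < θ)
    (h : Sys N p C θ) : False := by
  have hp0 : 0 < p := by linarith
  obtain ⟨L, hL, hL2⟩ := exists_L hp (4 * C * 8 ^ p)
  have hL' : (1 : ℝ) ≤ L := by exact_mod_cast hL
  obtain ⟨L', hL1, hL3⟩ := exists_L hp (4 * C * (16 * L / θ) ^ p)
  have hL1' : (1 : ℝ) ≤ L' := by exact_mod_cast hL1
  obtain ⟨M, hM, hM2⟩ := h.pigeon hθ hL (n := 3 + 4 * L') (by omega)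
  set a := M (alt (3 + 4 * L')) with ha
  by_cases hc : 16 * (L : ℝ) ≤ a
  · have ha0 : 0 < a := by linarith
    have h1 := chain hM hp0 hC hL (3 + 4 * L') (b := L * (a / 4)) (by positivity)
      fun X T o g => le_trans (by nlinarith) (g.main hM hL)
    have h2 := hM.alt_add (3 + 4 * L') (4 * L)
    push_cast at h2
    have h3 : M (alt (3 + 4 * L' + 4 * L)) ^ p ≤ (8 * (a / 4)) ^ p :=
      Real.rpow_le_rpow (hM.good.nonneg _) (by linarith) hp0.le
    rw [Real.mul_rpow (by norm_num) (by positivity)] at h3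
    rw [Real.mul_rpow (by positivity) (by positivity)] at h1
    have h4 : 0 < (a / 4) ^ p := by positivity
    have h5 := mul_le_mul_of_nonneg_left h3 (mul_nonneg hC (by linarith : (0 : ℝ) ≤ L))
    have h6 := mul_lt_mul_of_pos_right hL2 h4
    nlinarith
  · have h1 := chain hM hp0 hC hL1 3 (b := L' * θ) (by positivity)
      fun X T o g => le_trans (by rw [mul_comm]) (g.small hM hL1 le_rfl)
    have h3 : a ^ p ≤ (16 * L / θ * θ) ^ p :=
      Real.rpow_le_rpow (hM.good.nonneg _) (by rw [div_mul_cancel₀ _ hθ.ne']; linarith) hp0.le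
    rw [Real.mul_rpow (by positivity) hθ.le] at h3
    rw [Real.mul_rpow (by positivity) hθ.le] at h1
    have h4 : 0 < θ ^ p := by positivity
    have h5 := mul_le_mul_of_nonneg_left h3 (mul_nonneg hC (by linarith : (0 : ℝ) ≤ L'))
    have h6 := mul_lt_mul_of_pos_right hL3 h4
    nlinarith

theorem not_james {X : Type*} [NormedAddCommGroup X] [NormedSpace ℝ X] {p : ℝ} (hp : 1 < p)
    (hX : HasMarkovType X p) : ¬ JamesPattern X := by
  intro hJ
  obtain ⟨K, hK, h⟩ := hX
  obtain ⟨N, g, α, β, hαβ, h1⟩ := exists_sys1 (C := K ^ p) (by linarith) h hJ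
  exact not_sys hp (by positivity) (by linarith) (exists_sys (by linarith) hαβ h1)

theorem main {X : Type*} [NormedAddCommGroup X] [NormedSpace ℝ X] {p : ℝ} (hp : 1 < p)
    (hX : HasMarkovType X p) :
    (∃ N : Seminorm ℝ X, IsEquivalentNorm N ∧ IsUniformlySmooth N) ∧
      (∃ N : Seminorm ℝ X, IsEquivalentNorm N ∧ IsUniformlyConvex N) := by
  constructor
  · by_contra hc
    refine not_james hp hX (james_of_not_uc_dual ?_)
    rintro ⟨N, h1, h2⟩
    exact hc (smooth_of_dual_uc N h1 h2)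
  · by_contra hc
    exact not_james hp hX (james_of_not_uc hc)

end Vale.Agent.P125
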