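import Vale.Agent.P125.Spread

open Finset

namespace Vale.Agent.P125

noncomputable def alt (n : ℕ) : E0 := ∑ i ∈ Finset.range n, Finsupp.single i ((-1 : ℝ) ^ i)

noncomputable def TL (L : ℕ) : E0 →ₗ[ℝ] E0 :=
  Finsupp.linearCombination ℝ fun i => ∑ s : Fin L, Finsupp.single (i * L + s) (1 / L : ℝ)

lemma TL_single (L i : ℕ) (a : ℝ) :
    TL L (Finsupp.single i a) = ∑ s : Fin L, Finsupp.single (i * L + s) (a / L) := by
  simp [TL, Finset.smul_sum, div_eq_mul_inv]

variable {N : E0 → ℝ} {p C θ : ℝ}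

lemma Spread.range (h : Spread N) (n : ℕ) (σ : ℕ → ℕ) (hσ : ∀ i j, i < j → j < n → σ i < σ j)
    (c : ℕ → ℝ) : N (∑ i ∈ Finset.range n, Finsupp.single (σ i) (c i))
      = N (∑ i ∈ Finset.range n, Finsupp.single i (c i)) := by
  rw [Finset.sum_range, Finset.sum_range]
  exact h (Fin n) (fun i => σ i) (fun i => i) (fun i j hij => hσ i j hij j.2)
    (fun i j hij => hij) fun i => c i

lemma Spread.two (h : Spread N) {ι : Type} [Fintype ι] [LinearOrder ι] {L : ℕ}
    (f f' : ι → Fin L → ℕ) (h1 : ∀ a s s', s < s' → f a s < f a s')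
    (h2 : ∀ a a' s s', a < a' → f a s < f a' s') (h1' : ∀ a s s', s < s' → f' a s < f' a s')
    (h2' : ∀ a a' s s', a < a' → f' a s < f' a' s') (c : ι → ℝ) :
    N (∑ a, ∑ s, Finsupp.single (f a s) (c a)) = N (∑ a, ∑ s, Finsupp.single (f' a s) (c a)) := by
  have mono : ∀ g : ι → Fin L → ℕ, (∀ a s s', s < s' → g a s < g a s') →
      (∀ a a' s s', a < a' → g a s < g a' s') →
      StrictMono fun x : ι ×ₗ Fin L => g (ofLex x).1 (ofLex x).2 := by
    intro g g1 g2 x y hxy
    rcases Prod.Lex.lt_iff.mp hxy with h3 | ⟨h3, h4⟩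
    · exact g2 _ _ _ _ h3
    · simp only [h3]; exact g1 _ _ _ h4
  have sm : ∀ g : ι → Fin L → ℕ, (∑ a, ∑ s, Finsupp.single (g a s) (c a) : E0)
      = ∑ x : ι ×ₗ Fin L, Finsupp.single (g (ofLex x).1 (ofLex x).2) (c (ofLex x).1) := by
    intro g
    rw [← Equiv.sum_comp toLex, Fintype.sum_prod_type]
    rfl
  rw [sm f, sm f']
  exact h (ι ×ₗ Fin L) _ _ (mono f h1 h2) (mono f' h1' h2') _

lemma blk_lt {L a a' : ℕ} (s s' : Fin L) (h : a < a') : a * L + s < a' * L + s' := by
  have h1 : (a + 1) * L ≤ a' * L := Nat.mul_le_mul_right L h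
  have := s.2
  rw [add_mul, one_mul] at h1
  omega

lemma sum_Ico_single (k k' j : ℕ) (a : ℝ) :
    ∑ i ∈ Finset.Ico k k', (Finsupp.single j a : E0) i = if j ∈ Finset.Ico k k' then a else 0 := by
  simp only [Finsupp.single_apply]
  exact Finset.sum_ite_eq _ _ _

theorem Sys.split (h : Sys N p C θ) {L : ℕ} (hL : 1 ≤ L) : Sys (fun c => N (TL L c)) p C θ := by
  have hL' : (0 : ℝ) < L := by exact_mod_cast hL
  refine ⟨h.good.comp (TL L), fun i => ?_, fun k k' c hk => ?_, ?_⟩
  · rw [TL_single]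
    refine (h.good.sum_le _ _).trans ?_
    refine (Finset.sum_le_sum fun s _ => single_le h.good h.unit _ _).trans (le_of_eq ?_)
    rw [Finset.sum_const, Finset.card_univ, Fintype.card_fin, nsmul_eq_mul,
      abs_of_pos (by positivity)]
    field_simp
  · have key : ∑ i ∈ Finset.Ico (k * L) (k' * L), TL L c i = ∑ i ∈ Finset.Ico k k', c i := by
      induction c using Finsupp.induction_linear with
      | zero => simp
      | add f g hf hg => simp only [map_add, Finsupp.add_apply, Finset.sum_add_distrib, hf, hg]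
      | single j a =>
        rw [TL_single, sum_Ico_single]
        simp only [Finsupp.finset_sum_apply]
        rw [Finset.sum_comm]
        simp only [sum_Ico_single]
        have : ∀ s : Fin L, j * L + s ∈ Finset.Ico (k * L) (k' * L) ↔ j ∈ Finset.Ico k k' := by
          intro s
          simp only [Finset.mem_Ico]
          have z : Fin L := ⟨0, hL⟩
          constructor
          · rintro ⟨a1, a2⟩
            constructor
            · by_contra hc
              have := blk_lt s ⟨0, hL⟩ (not_le.mp hc)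
              simp only at this; omega
            · by_contra hc
              have := Nat.mul_le_mul_right L (not_lt.mp hc)
              omega
          · rintro ⟨a1, a2⟩
            constructor
            · have := Nat.mul_le_mul_right L a1
              omega
            · have := blk_lt s ⟨0, hL⟩ a2
              simpa using this
        simp only [this]
        split_ifs
        · rw [Finset.sum_const, Finset.card_univ, Fintype.card_fin, nsmul_eq_mul]; field_simp
        · simp
    rw [← key]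
    exact h.james _ _ _ (Nat.mul_le_mul_right L hk)
  · intro ι _ _ σ σ' hσ hσ' c
    simp only [map_sum, TL_single]
    exact h.spread.two (fun a s => σ a * L + s) (fun a s => σ' a * L + s)
      (fun a s s' hs => by simpa using hs) (fun a a' s s' ha => blk_lt s s' (hσ ha))
      (fun a s s' hs => by simpa using hs) (fun a a' s s' ha => blk_lt s s' (hσ' ha)) _

lemma Sys.alt_lower (h : Sys N p C θ) {n : ℕ} (hn : 1 ≤ n) : θ ≤ N (alt n) := by
  have := h.james 0 1 (alt n) zero_le_one
  have e : ∑ i ∈ Finset.Ico 0 1, alt n i = 1 := by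
    unfold alt
    simp only [Finsupp.finset_sum_apply]
    rw [Finset.sum_comm]
    simp only [sum_Ico_single]
    rw [Finset.sum_eq_single 0]
    · simp
    · intro b _ hb; simp [hb]
    · intro hb; exact absurd (Finset.mem_range.mpr hn) hb
  rwa [e, abs_one, mul_one] at this

theorem Sys.pigeon (h : Sys N p C θ) (hθ : 0 < θ) {L n : ℕ} (hL : 1 ≤ L) (hn : 1 ≤ n) :
    ∃ M, Sys M p C θ ∧ M (alt n) ≤ 2 * M (TL L (alt n)) := by
  by_contra hc
  push Not at hc
  have key : ∀ j : ℕ, ∃ M, Sys M p C θ ∧ M (alt n) * 2 ^ j ≤ N (alt n) := by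
    intro j
    induction j with
    | zero => exact ⟨N, h, by simp⟩
    | succ j ih =>
      obtain ⟨M, h1, h2⟩ := ih
      refine ⟨_, h1.split hL, ?_⟩
      have := hc M h1
      have h3 : (0 : ℝ) < 2 ^ j := by positivity
      rw [pow_succ]
      nlinarith
  obtain ⟨j, hj⟩ := pow_unbounded_of_one_lt (N (alt n) / θ) (one_lt_two (α := ℝ))
  obtain ⟨M, h1, h2⟩ := key j
  have h3 := h1.alt_lower hn
  rw [div_lt_iff₀ hθ] at hj
  have h4 : (0 : ℝ) < 2 ^ j := by positivity
  nlinarith

lemma Sys.sum_signs (h : Sys N p C θ) (s : Finset ℕ) (σ t : ℕ → ℕ) :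
    N (∑ i ∈ s, Finsupp.single (σ i) ((-1 : ℝ) ^ t i)) ≤ s.card := by
  refine (h.good.sum_le _ _).trans ?_
  refine (Finset.sum_le_sum fun s _ => single_le h.good h.unit _ _).trans (le_of_eq ?_)
  simp

lemma Sys.alt_add (h : Sys N p C θ) (m k : ℕ) : N (alt (m + k)) ≤ N (alt m) + k := by
  unfold alt
  rw [Finset.sum_range_add]
  refine (h.good.add _ _).trans ?_
  have := h.sum_signs (Finset.range k) (fun x => m + x) fun x => m + x
  rw [Finset.card_range] at this
  linarith

structure Geo (L m : ℕ) (X : ℕ → ℕ → ℕ) (T o : ℕ → ℕ) : Prop where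
  mono : ∀ s < L, ∀ i j, i < j → j < m + 4 * L → X s i < X s j
  bd : ∀ s < L, o s ≤ 4 * L
  par : ∀ s < L, Even (o s + T s)
  nest : ∀ s, s + 1 < L → ∀ ρ < m,
    (Even ρ → X s (o s + ρ) < X (s + 1) (o (s + 1) + ρ)) ∧
    (Odd ρ → X (s + 1) (o (s + 1) + ρ) < X s (o s + ρ))

noncomputable def pathSum (L n : ℕ) (X : ℕ → ℕ → ℕ) (T : ℕ → ℕ) : E0 :=
  ∑ s ∈ Finset.range L, ∑ i ∈ Finset.range n, Finsupp.single (X s i) ((-1 : ℝ) ^ (i + T s))

section
variable {L m : ℕ} {X : ℕ → ℕ → ℕ} {T o : ℕ → ℕ}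

lemma Geo.chain (g : Geo L m X T o) {ρ : ℕ} (hρ : ρ < m) {s s' : ℕ} (hs : s < s') (hs' : s' < L) :
    (Even ρ → X s (o s + ρ) < X s' (o s' + ρ)) ∧ (Odd ρ → X s' (o s' + ρ) < X s (o s + ρ)) := by
  induction s', hs using Nat.le_induction with
  | base => exact g.nest s hs' ρ hρ
  | succ s' _ ih =>
    have a1 := ih (by omega)
    have a2 := g.nest s' hs' ρ hρ
    exact ⟨fun h => (a1.1 h).trans (a2.1 h), fun h => (a2.2 h).trans (a1.2 h)⟩

lemma Geo.chain_le (g : Geo L m X T o) {ρ : ℕ} (hρ : ρ < m) {s s' : ℕ} (hs : s ≤ s')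
    (hs' : s' < L) :
    (Even ρ → X s (o s + ρ) ≤ X s' (o s' + ρ)) ∧ (Odd ρ → X s' (o s' + ρ) ≤ X s (o s + ρ)) := by
  rcases eq_or_lt_of_le hs with rfl | h
  · exact ⟨fun _ => le_rfl, fun _ => le_rfl⟩
  · exact ⟨fun h' => ((g.chain hρ h hs').1 h').le, fun h' => ((g.chain hρ h hs').2 h').le⟩

lemma Geo.cross (g : Geo L m X T o) {ρ ρ' : ℕ} (hρ : ρ < ρ') (hρ' : ρ' < m) {s s' : ℕ}
    (hs : s < L) (hs' : s' < L) : X s (o s + ρ) < X s' (o s' + ρ') := by
  have step : X s (o s + ρ) < X s' (o s' + (ρ + 1)) := by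
    rcases Nat.even_or_odd ρ with he | he
    · have a1 := (g.chain_le (ρ := ρ) (by omega) (s := s) (s' := L - 1) (by omega) (by omega)).1 he
      have a2 := (g.chain_le (ρ := ρ + 1) (by omega) (s := s') (s' := L - 1) (by omega)
        (by omega)).2 he.add_one
      have a3 := g.mono (L - 1) (by omega) (o (L - 1) + ρ) (o (L - 1) + (ρ + 1)) (by omega)
        (by have := g.bd (L - 1) (by omega); omega)
      omega
    · have a1 := (g.chain_le (ρ := ρ) (by omega) (s := 0) (s' := s) (by omega) hs).2 he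
      have a2 := (g.chain_le (ρ := ρ + 1) (by omega) (s := 0) (s' := s') (by omega) hs').1
        he.add_one
      have a3 := g.mono 0 (by omega) (o 0 + ρ) (o 0 + (ρ + 1)) (by omega)
        (by have := g.bd 0 (by omega); omega)
      omega
  rcases eq_or_lt_of_le (Nat.succ_le_of_lt hρ) with h | h
  · rw [← h]; exact step
  · exact step.trans (g.mono s' hs' _ _ (by omega) (by have := g.bd s' hs'; omega))

lemma Geo.sign (g : Geo L m X T o) {s : ℕ} (hs : s < L) (ρ : ℕ) :
    (-1 : ℝ) ^ (o s + ρ + T s) = (-1) ^ ρ := by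
  rw [show o s + ρ + T s = ρ + (o s + T s) by ring, pow_add, (g.par s hs).neg_one_pow, mul_one]

theorem Geo.main (g : Geo L m X T o) (h : Sys N p C θ) (hL : 1 ≤ L) :
    L * N (TL L (alt m)) - 4 * L * L ≤ N (pathSum L (m + 4 * L) X T) := by
  have hL' : (0 : ℝ) < L := by exact_mod_cast hL
  set bulk : E0 := ∑ s ∈ Finset.range L, ∑ ρ ∈ Finset.range m,
    Finsupp.single (X s (o s + ρ)) ((-1 : ℝ) ^ ρ) with hbulk
  set rest : E0 := ∑ s ∈ Finset.range L,
    (∑ i ∈ Finset.range (o s), Finsupp.single (X s i) ((-1 : ℝ) ^ (i + T s))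
      + ∑ i ∈ Finset.range (4 * L - o s),
        Finsupp.single (X s (o s + m + i)) ((-1 : ℝ) ^ (o s + m + i + T s))) with hrest
  have e1 : pathSum L (m + 4 * L) X T = bulk + rest := by
    unfold pathSum
    rw [hbulk, hrest, ← Finset.sum_add_distrib]
    refine Finset.sum_congr rfl fun s hs => ?_
    have hs' := Finset.mem_range.mp hs
    have := g.bd s hs'
    rw [show m + 4 * L = o s + m + (4 * L - o s) by omega, Finset.sum_range_add,
      Finset.sum_range_add]
    simp only [g.sign hs']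
    abel
  have e2 : N rest ≤ 4 * L * L := by
    refine (h.good.sum_le _ _).trans ?_
    have : ∀ s ∈ Finset.range L, N (∑ i ∈ Finset.range (o s),
        Finsupp.single (X s i) ((-1 : ℝ) ^ (i + T s)) + ∑ i ∈ Finset.range (4 * L - o s),
        Finsupp.single (X s (o s + m + i)) ((-1 : ℝ) ^ (o s + m + i + T s))) ≤ 4 * L := by
      intro s hs
      have hb := g.bd s (Finset.mem_range.mp hs)
      have a1 := h.sum_signs (Finset.range (o s)) (X s) fun i => i + T s
      have a2 := h.sum_signs (Finset.range (4 * L - o s)) (fun i => X s (o s + m + i))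
        fun i => o s + m + i + T s
      rw [Finset.card_range] at a1 a2
      rw [Nat.cast_sub hb] at a2
      push_cast at a2
      linarith [h.good.add (∑ i ∈ Finset.range (o s),
        Finsupp.single (X s i) ((-1 : ℝ) ^ (i + T s))) (∑ i ∈ Finset.range (4 * L - o s),
        Finsupp.single (X s (o s + m + i)) ((-1 : ℝ) ^ (o s + m + i + T s)))]
    refine (Finset.sum_le_sum this).trans (le_of_eq ?_)
    rw [Finset.sum_const, Finset.card_range, nsmul_eq_mul]; ring
  have e3 : N bulk = L * N (TL L (alt m)) := by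
    have a1 : (L : ℝ) • TL L (alt m)
        = ∑ ρ : Fin m, ∑ s : Fin L, Finsupp.single ((ρ : ℕ) * L + s) ((-1 : ℝ) ^ (ρ : ℕ)) := by
      unfold alt
      rw [Finset.sum_range, map_sum, Finset.smul_sum]
      refine Finset.sum_congr rfl fun ρ _ => ?_
      rw [TL_single, Finset.smul_sum]
      refine Finset.sum_congr rfl fun s _ => ?_
      rw [Finsupp.smul_single, smul_eq_mul]
      congr 1; field_simp
    let f : Fin m → Fin L → ℕ := fun ρ s =>
      if Even (ρ : ℕ) then X s (o s + ρ) else X (Fin.rev s) (o (Fin.rev s) + ρ)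
    have a2 : bulk = ∑ ρ : Fin m, ∑ s : Fin L, Finsupp.single (f ρ s) ((-1 : ℝ) ^ (ρ : ℕ)) := by
      rw [hbulk, Finset.sum_comm, Finset.sum_range]
      refine Finset.sum_congr rfl fun ρ _ => ?_
      rw [Finset.sum_range]
      by_cases he : Even (ρ : ℕ)
      · simp only [f, he, if_true]
      · simp only [f, he, if_false]
        exact (Equiv.sum_comp Fin.revPerm fun s : Fin L =>
          (Finsupp.single (X s (o s + ρ)) ((-1 : ℝ) ^ (ρ : ℕ)) : E0)).symm
    rw [a2, h.spread.two f (fun ρ s => (ρ : ℕ) * L + s) ?_ ?_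
      (fun a s s' hs => by simpa using hs) (fun a a' s s' ha => blk_lt s s' ha), ← a1,
      h.good.smul, abs_of_pos hL']
    · intro ρ s s' hs
      by_cases he : Even (ρ : ℕ)
      · simp only [f, he, if_true]
        exact (g.chain ρ.2 hs s'.2).1 he
      · simp only [f, he, if_false]
        exact (g.chain ρ.2 (Fin.rev_lt_rev.mpr hs) (Fin.rev s).2).2 (Nat.not_even_iff_odd.mp he)
    · intro ρ ρ' s s' hρ
      simp only [f]
      split_ifs
      all_goals exact g.cross hρ ρ'.2 (Fin.is_lt _) (Fin.is_lt _)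
  have e4 := h.good.add (bulk + rest) (-rest)
  rw [add_neg_cancel_right, h.good.neg] at e4
  rw [e1]; linarith

theorem Geo.small (g : Geo L m X T o) (h : Sys N p C θ) (hL : 1 ≤ L) (hm : 3 ≤ m) :
    θ * L ≤ N (pathSum L (m + 4 * L) X T) := by
  set τ₁ := X (L - 1) (o (L - 1) + 1) with h1
  set τ₂ := X 0 (o 0 + 2) with h2
  have h12 : τ₁ < τ₂ := g.cross (by norm_num) (by omega) (by omega) (by omega)
  have key : ∑ j ∈ Finset.Ico τ₁ τ₂, pathSum L (m + 4 * L) X T j = -L := by
    unfold pathSum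
    simp only [Finsupp.finset_sum_apply]
    rw [Finset.sum_comm]
    have : ∀ s ∈ Finset.range L, ∑ j ∈ Finset.Ico τ₁ τ₂, ∑ i ∈ Finset.range (m + 4 * L),
        (Finsupp.single (X s i) ((-1 : ℝ) ^ (i + T s)) : E0) j = -1 := by
      intro s hs
      have hs' := Finset.mem_range.mp hs
      have hb := g.bd s hs'
      rw [Finset.sum_comm]
      simp only [sum_Ico_single]
      have b0 : X s (o s + 0) < τ₁ := g.cross (by norm_num) (by omega) hs' (by omega)
      have b1 : τ₁ ≤ X s (o s + 1) :=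
        (g.chain_le (ρ := 1) (by omega) (s := s) (s' := L - 1) (by omega) (by omega)).2 odd_one
      have b2 : X s (o s + 1) < τ₂ := g.cross (by norm_num) (by omega) hs' (by omega)
      have b3 : τ₂ ≤ X s (o s + 2) :=
        (g.chain_le (ρ := 2) (by omega) (s := 0) (s' := s) (by omega) hs').1 even_two
      rw [Finset.sum_eq_single (o s + 1)]
      · rw [if_pos (Finset.mem_Ico.mpr ⟨b1, b2⟩), g.sign hs', pow_one]
      · intro i hi hne
        rw [if_neg]
        rw [Finset.mem_Ico]
        have hi' := Finset.mem_range.mp hi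
        rcases lt_or_gt_of_ne hne with h3 | h3
        · rcases eq_or_lt_of_le (Nat.le_of_lt_succ h3) with h4 | h4
          · rw [h4]; simp only [add_zero] at b0; omega
          · have := g.mono s hs' i (o s + 0) h4 (by omega); omega
        · rcases eq_or_lt_of_le (Nat.succ_le_of_lt h3) with h4 | h4
          · rw [← h4]; change ¬ (τ₁ ≤ X s (o s + 2) ∧ X s (o s + 2) < τ₂); omega
          · have := g.mono s hs' (o s + 2) i h4 hi'; omega
      · intro hb'
        exact absurd (Finset.mem_range.mpr (by omega)) hb'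
    rw [Finset.sum_congr rfl this]
    simp
  have := h.james τ₁ τ₂ (pathSum L (m + 4 * L) X T) h12.le
  rwa [key, abs_neg, Nat.abs_cast] at this

end

end Vale.Agent.P125
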