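import Vale.Agent.P125.Enflo
import Vale.Agent.P125.Density

open Finset Filter Topology

namespace Vale.Agent.P125

lemma exists_ulim {ι : Type*} (U : Ultrafilter ι) (f : ι → ℝ) (C : ℝ) (h : ∀ i, |f i| ≤ C) :
    ∃ a, Tendsto f U (𝓝 a) := by
  obtain ⟨a, -, ha⟩ := (isCompact_Icc (a := -C) (b := C)).ultrafilter_le_nhds (U.map f) (by
    rw [Ultrafilter.coe_map, le_principal_iff, Filter.mem_map]
    exact Filter.Eventually.of_forall fun i => abs_le.mp (h i))
  exact ⟨a, ha⟩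

noncomputable def UU : Ultrafilter ℕ := hyperfilter ℕ

lemma UU_le : (UU : Filter ℕ) ≤ atTop := by
  rw [← Nat.cofinite_eq_atTop]; exact hyperfilter_le_cofinite

lemma UU_gt (k : ℕ) : ∀ᶠ n in (UU : Filter ℕ), k < n := UU_le (eventually_gt_atTop k)

section
variable {A : Type*} [NormedAddCommGroup A] [NormedSpace ℝ A]

lemma Tree.explicit {ε : ℝ} : ∀ {n : ℕ} {x : A}, Tree ε n x →
    ∃ y : Node → A, y [] = x ∧ (∀ s, ‖y s‖ ≤ 2) ∧
      (∀ s, y s = (1 / 2 : ℝ) • (y (s ++ [false]) + y (s ++ [true]))) ∧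
      ∀ s, s.length < n → ε ≤ ‖y (s ++ [false]) - y (s ++ [true])‖
  | 0, x, h => ⟨fun _ => x, rfl, fun _ => h, fun _ => by module, fun s hs => by omega⟩
  | n + 1, x, ⟨h, u, v, h1, h2, h3, h4⟩ => by
      obtain ⟨y0, a0, b0, c0, d0⟩ := h3.explicit
      obtain ⟨y1, a1, b1, c1, d1⟩ := h4.explicit
      refine ⟨fun s => match s with
        | [] => x
        | false :: s => y0 s
        | true :: s => y1 s, rfl, ?_, ?_, ?_⟩
      · rintro (_ | ⟨_ | _, s⟩)
        · exact h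
        · exact b0 s
        · exact b1 s
      · rintro (_ | ⟨_ | _, s⟩)
        · simpa [a0, a1] using h1
        · exact c0 s
        · exact c1 s
      · rintro (_ | ⟨_ | _, s⟩) hs
        · simpa [a0, a1] using h2
        · exact d0 s (by simpa using hs)
        · exact d1 s (by simpa using hs)

variable {B : Type*} [NormedAddCommGroup B] [NormedSpace ℝ B]

theorem pairing_pattern (pr : A →ₗ[ℝ] B →ₗ[ℝ] ℝ) (hb : ∀ a b, |pr a b| ≤ ‖a‖ * ‖b‖)
    (hn : ∀ a, ∀ η : ℝ, 0 < η → ∃ b, ‖b‖ ≤ 1 ∧ ‖a‖ - η ≤ pr a b) {ε : ℝ} (hε : 0 < ε)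
    (ht : ∀ n, ∃ x : A, Tree ε n x) :
    ∃ α β : ℝ, α < β ∧ ∀ m : ℕ, ∃ (a : ℕ → A) (b : ℕ → B), (∀ i, ‖a i‖ ≤ 1) ∧ (∀ j, ‖b j‖ ≤ 1) ∧
      ∀ i j, i < m → j < m → (i < j → pr (a i) (b j) ≤ α) ∧ (j ≤ i → β ≤ pr (a i) (b j)) := by
  choose x hx using ht
  choose y _ hy1 hy2 hy3 using fun n => (hx n).explicit
  let 𝓕 : Set (Node → ℝ) := {g | ∃ b : ℕ → B, (∀ n, ‖b n‖ ≤ 1) ∧
    ∀ s, Tendsto (fun n => pr (y n s) (b n)) UU (𝓝 (g s))}
  have hbd : ∀ (b : ℕ → B), (∀ n, ‖b n‖ ≤ 1) → ∀ s n, |pr (y n s) (b n)| ≤ 2 := by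
    intro b hb1 s n
    refine (hb _ _).trans ?_
    nlinarith [hy1 n s, hb1 n, norm_nonneg (y n s), norm_nonneg (b n)]
  have hF : Fam 𝓕 (min (ε / 2) 1) := by
    refine ⟨?_, ?_, ?_⟩
    · rintro g ⟨b, hb1, hlim⟩
      refine ⟨fun s => ?_, fun s => ?_⟩
      · refine tendsto_nhds_unique (hlim s) ?_
        convert ((hlim (s ++ [false])).add (hlim (s ++ [true]))).div_const 2 using 1
        funext n
        conv_lhs => rw [hy2 n s]
        simp only [map_smul, map_add, LinearMap.smul_apply, LinearMap.add_apply, smul_eq_mul]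
        ring
      · exact le_of_tendsto' (hlim s).abs fun n => hbd b hb1 s n
    · rintro g ⟨b, hb1, hlim⟩ g' ⟨b', hb1', hlim'⟩
      refine ⟨fun n => (1 / 2 : ℝ) • (b n - b' n), fun n => ?_, fun s => ?_⟩
      · rw [norm_smul, Real.norm_eq_abs, abs_of_pos (by norm_num)]
        linarith [norm_sub_le (b n) (b' n), hb1 n, hb1' n]
      · convert ((hlim s).sub (hlim' s)).div_const 2 using 1
        funext n
        simp only [map_smul, map_sub, smul_eq_mul]
        ring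
    · intro s
      choose b hb1 hb2 using fun n => hn (y n (s ++ [false]) - y n (s ++ [true])) (ε / 2)
        (half_pos hε)
      choose g hg using fun u => exists_ulim UU (fun n => pr (y n u) (b n)) 2 (hbd b hb1 u)
      refine ⟨g, ⟨b, hb1, hg⟩, (min_le_left _ _).trans ?_⟩
      refine ge_of_tendsto ((hg (s ++ [false])).sub (hg (s ++ [true]))) ?_
      filter_upwards [UU_gt s.length] with n hn'
      have h1 := hb2 n
      have h2 := hy3 n s hn'
      simp only [map_sub, LinearMap.sub_apply] at h1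
      linarith
  obtain ⟨α, β, s, g, hαβ, hg, hpat⟩ := exists_pattern hF (lt_min (half_pos hε) one_pos)
    (min_le_right _ _)
  choose b hb1 hlim using hg
  set η := (β - α) / 3 with hη
  have hη0 : 0 < η := by rw [hη]; linarith
  refine ⟨(α + η) / 2, (β - η) / 2, by rw [hη]; linarith, fun m => ?_⟩
  have hev : ∀ᶠ n in (UU : Filter ℕ), ∀ e : Fin m × Fin m,
      dist (pr (y n (s e.1)) (b e.2 n)) (g e.2 (s e.1)) < η :=
    Filter.eventually_all.mpr fun e => Metric.tendsto_nhds.mp (hlim e.2 (s e.1)) η hη0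
  obtain ⟨n, hn'⟩ := hev.exists
  refine ⟨fun i => (1 / 2 : ℝ) • y n (s i), fun j => b j n, fun i => ?_, fun j => hb1 j n,
    fun i j hi hj => ?_⟩
  · rw [norm_smul, Real.norm_eq_abs, abs_of_pos (by norm_num)]
    linarith [hy1 n (s i)]
  · have h1 := hn' (⟨i, hi⟩, ⟨j, hj⟩)
    rw [Real.dist_eq, abs_lt] at h1
    simp only [map_smul, LinearMap.smul_apply, smul_eq_mul]
    constructor
    · intro hij
      have := (hpat i j).1 hij
      linarith [h1.2]
    · intro hij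
      have := (hpat i j).2 hij
      linarith [h1.1]

end

variable {X : Type*} [NormedAddCommGroup X] [NormedSpace ℝ X]

def JamesPattern (X : Type*) [NormedAddCommGroup X] [NormedSpace ℝ X] : Prop :=
  ∃ α β : ℝ, α < β ∧ ∀ m : ℕ, ∃ (x : ℕ → X) (φ : ℕ → X →L[ℝ] ℝ), (∀ i, ‖x i‖ ≤ 1) ∧
    (∀ j, ‖φ j‖ ≤ 1) ∧
    ∀ i j, i < m → j < m → (i < j → φ j (x i) ≤ α) ∧ (j < i → β ≤ φ j (x i))

lemma trees_of_not_uc (h : ¬ ∃ N : Seminorm ℝ X, IsEquivalentNorm N ∧ IsUniformlyConvex N) :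
    ∃ ε : ℝ, 0 < ε ∧ ∀ n, ∃ x : X, Tree ε n x := by
  by_contra hc
  push Not at hc
  exact h (enflo hc)

theorem james_of_not_uc (h : ¬ ∃ N : Seminorm ℝ X, IsEquivalentNorm N ∧ IsUniformlyConvex N) :
    JamesPattern X := by
  obtain ⟨ε, hε, ht⟩ := trees_of_not_uc h
  let pr : X →ₗ[ℝ] (X →L[ℝ] ℝ) →ₗ[ℝ] ℝ :=
    LinearMap.mk₂ ℝ (fun x φ => φ x) (by simp) (by simp) (by simp) (by simp)
  obtain ⟨α, β, hαβ, hp⟩ := pairing_pattern pr
    (fun a b => by
      have := b.le_opNorm a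
      rw [mul_comm]; exact this)
    (fun a η hη => by
      obtain ⟨φ, h1, h2⟩ := exists_dual_vector'' ℝ a
      refine ⟨φ, h1, ?_⟩
      change ‖a‖ - η ≤ φ a
      rw [h2]; simp; linarith) hε ht
  refine ⟨α, β, hαβ, fun m => ?_⟩
  obtain ⟨a, b, h1, h2, h3⟩ := hp m
  exact ⟨a, b, h1, h2, fun i j hi hj => ⟨(h3 i j hi hj).1, fun h => (h3 i j hi hj).2 h.le⟩⟩

theorem james_of_not_uc_dual
    (h : ¬ ∃ N : Seminorm ℝ (X →L[ℝ] ℝ), IsEquivalentNorm N ∧ IsUniformlyConvex N) :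
    JamesPattern X := by
  obtain ⟨ε, hε, ht⟩ := trees_of_not_uc h
  let pr : (X →L[ℝ] ℝ) →ₗ[ℝ] X →ₗ[ℝ] ℝ :=
    LinearMap.mk₂ ℝ (fun φ x => φ x) (by simp) (by simp) (by simp) (by simp)
  obtain ⟨α, β, hαβ, hp⟩ := pairing_pattern pr
    (fun a b => a.le_opNorm b)
    (fun a η hη => by
      obtain ⟨x, h1, h2⟩ := a.exists_lt_apply_of_lt_opNorm (r := ‖a‖ - η) (by linarith)
      rw [Real.norm_eq_abs] at h2
      rcases le_total 0 (a x) with h3 | h3
      · rw [abs_of_nonneg h3] at h2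
        exact ⟨x, h1.le, h2.le⟩
      · rw [abs_of_nonpos h3] at h2
        refine ⟨-x, by simpa using h1.le, ?_⟩
        change ‖a‖ - η ≤ a (-x)
        rw [map_neg]; exact h2.le) hε ht
  refine ⟨-β, -α, by linarith, fun m => ?_⟩
  obtain ⟨a, b, h1, h2, h3⟩ := hp m
  refine ⟨b, fun j => -a j, h2, fun j => by simpa using h1 j, fun i j hi hj => ⟨fun h => ?_,
    fun h => ?_⟩⟩
  · have : β ≤ a j (b i) := (h3 j i hj hi).2 h.le
    simp only [ContinuousLinearMap.neg_apply]; linarith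
  · have : a j (b i) ≤ α := (h3 j i hj hi).1 h
    simp only [ContinuousLinearMap.neg_apply]; linarith

theorem smooth_of_dual_uc (N : Seminorm ℝ (X →L[ℝ] ℝ)) (h1 : IsEquivalentNorm N)
    (h2 : IsUniformlyConvex N) :
    ∃ M : Seminorm ℝ X, IsEquivalentNorm M ∧ IsUniformlySmooth M := by
  obtain ⟨a, b, ha, hb, hab⟩ := h1
  let S : X → Set ℝ := fun x => {r | ∃ φ : X →L[ℝ] ℝ, N φ ≤ 1 ∧ r = φ x}
  have hup : ∀ x, ∀ r ∈ S x, r ≤ a⁻¹ * ‖x‖ := by
    rintro x r ⟨φ, hφ, rfl⟩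
    have h3 : ‖φ‖ ≤ a⁻¹ := by
      rw [← one_div, le_div_iff₀ ha]; linarith [(hab φ).1]
    calc φ x ≤ ‖φ x‖ := le_abs_self _
      _ ≤ ‖φ‖ * ‖x‖ := φ.le_opNorm x
      _ ≤ a⁻¹ * ‖x‖ := mul_le_mul_of_nonneg_right h3 (norm_nonneg x)
  have hbdd : ∀ x, BddAbove (S x) := fun x => ⟨_, hup x⟩
  have hne : ∀ x, (S x).Nonempty := fun x => ⟨0, 0, by simp, by simp⟩
  have hle : ∀ (φ : X →L[ℝ] ℝ) x, N φ ≤ 1 → φ x ≤ sSup (S x) := fun φ x hφ =>
    le_csSup (hbdd x) ⟨φ, hφ, rfl⟩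
  have habs : ∀ (φ : X →L[ℝ] ℝ) x, N φ ≤ 1 → |φ x| ≤ sSup (S x) := fun φ x hφ => by
    rw [abs_le]
    refine ⟨?_, hle φ x hφ⟩
    have := hle (-φ) x (by rwa [map_neg_eq_map])
    simp only [ContinuousLinearMap.neg_apply] at this
    linarith
  let M : Seminorm ℝ X := Seminorm.ofSMulLE (fun x => sSup (S x))
    (by
      apply le_antisymm
      · exact csSup_le (hne 0) fun r hr => by simpa using hup 0 r hr
      · simpa using hle 0 0 (by simp))
    (fun x y => csSup_le (hne _) (by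
      rintro r ⟨φ, hφ, rfl⟩
      rw [map_add]
      exact add_le_add (hle φ x hφ) (hle φ y hφ)))
    (fun c x => csSup_le (hne _) (by
      rintro r ⟨φ, hφ, rfl⟩
      rw [map_smul, smul_eq_mul]
      calc c * φ x ≤ |c * φ x| := le_abs_self _
        _ = |c| * |φ x| := abs_mul _ _
        _ ≤ ‖c‖ * sSup (S x) := mul_le_mul_of_nonneg_left (habs φ x hφ) (abs_nonneg c)))
  have hM : ∀ x, M x = sSup (S x) := fun x => rfl
  have hgen : ∀ (φ : X →L[ℝ] ℝ) x, φ x ≤ N φ * M x := by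
    intro φ x
    rcases eq_or_lt_of_le (apply_nonneg N φ) with h0 | h0
    · have : ‖φ‖ ≤ 0 := by
        have := (hab φ).1
        rw [← h0] at this
        by_contra hc
        push Not at hc
        nlinarith
      have : φ = 0 := norm_le_zero_iff.mp this
      simp [this]
    · have h3 := hle ((N φ)⁻¹ • φ) x (by
        rw [map_smul_eq_mul, Real.norm_eq_abs, abs_of_pos (inv_pos.mpr h0),
          inv_mul_cancel₀ h0.ne'])
      simp only [ContinuousLinearMap.smul_apply, smul_eq_mul] at h3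
      rw [hM]
      have := mul_le_mul_of_nonneg_left h3 h0.le
      rwa [← mul_assoc, mul_inv_cancel₀ h0.ne', one_mul] at this
  refine ⟨M, ⟨b⁻¹, a⁻¹, inv_pos.mpr hb, inv_pos.mpr ha, fun x => ⟨?_, csSup_le (hne x) (hup x)⟩⟩,
    ?_⟩
  · obtain ⟨φ, h3, h4⟩ := exists_dual_vector'' ℝ x
    have h5 := hgen φ x
    have h6 : N φ ≤ b := (hab φ).2.trans (by nlinarith)
    have h7 : φ x = ‖x‖ := by rw [h4]; simp
    rw [h7] at h5
    have h8 : ‖x‖ ≤ b * M x := h5.trans (mul_le_mul_of_nonneg_right h6 (apply_nonneg M x))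
    rw [inv_mul_le_iff₀ hb]; exact h8
  · unfold IsUniformlySmooth
    rw [Metric.tendsto_nhdsWithin_nhds]
    intro ε hε
    obtain ⟨δ, hδ, huc⟩ := h2 (min ε 2) (lt_min hε two_pos) (min_le_right _ _)
    refine ⟨δ, hδ, fun τ hτ hd => ?_⟩
    have hτ0 : 0 < τ := hτ
    rw [Real.dist_eq, sub_zero, abs_of_pos hτ0] at hd
    have hlo : 0 ≤ smoothnessModulus M τ := Real.sSup_nonneg (by
      rintro r ⟨x, y, hx, -, rfl⟩
      have h3 := map_add_le_add M (x + τ • y) (x - τ • y)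
      have e : x + τ • y + (x - τ • y) = (2 : ℝ) • x := by module
      rw [e, map_smul_eq_mul, hx] at h3
      simp at h3
      linarith)
    have hhi : smoothnessModulus M τ ≤ τ * (ε / 2) := Real.sSup_le (by
      rintro r ⟨x, y, hx, hy, rfl⟩
      have key : ∀ (φ ψ : X →L[ℝ] ℝ), N φ ≤ 1 → N ψ ≤ 1 →
          φ (x + τ • y) + ψ (x - τ • y) ≤ 2 + τ * ε := by
        intro φ ψ hφ hψ
        have e : φ (x + τ • y) + ψ (x - τ • y) = (φ + ψ) x + τ * (φ - ψ) y := by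
          simp only [map_add, map_sub, map_smul, smul_eq_mul, ContinuousLinearMap.add_apply,
            ContinuousLinearMap.sub_apply]
          ring
        have g1 := hgen (φ + ψ) x
        have g2 := hgen (φ - ψ) y
        rw [hx, mul_one] at g1
        rw [hy, mul_one] at g2
        have g3 := map_add_le_add N φ ψ
        have g4 := map_sub_le_add N φ ψ
        rw [e]
        by_cases hc : min ε 2 ≤ N (φ - ψ)
        · have g5 := huc φ ψ hφ hψ hc
          rw [map_smul_eq_mul, Real.norm_eq_abs, abs_of_pos (by norm_num)] at g5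
          nlinarith [mul_le_mul_of_nonneg_left (g2.trans g4) hτ0.le, mul_pos hτ0 hε]
        · push Not at hc
          have g5 : N (φ - ψ) ≤ ε := hc.le.trans (min_le_left _ _)
          nlinarith [mul_le_mul_of_nonneg_left (g2.trans g5) hτ0.le]
      have k2 : M (x + τ • y) + M (x - τ • y) ≤ 2 + τ * ε := by
        have : M (x + τ • y) ≤ 2 + τ * ε - M (x - τ • y) := csSup_le (hne _) (by
          rintro r ⟨φ, hφ, rfl⟩
          have : M (x - τ • y) ≤ 2 + τ * ε - φ (x + τ • y) := csSup_le (hne _) (by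
            rintro r ⟨ψ, hψ, rfl⟩
            linarith [key φ ψ hφ hψ])
          linarith)
        linarith
      linarith) (by positivity)
    rw [Real.dist_eq, sub_zero, abs_of_nonneg (div_nonneg hlo hτ0.le), div_lt_iff₀ hτ0]
    nlinarith [mul_pos hτ0 hε]

end Vale.Agent.P125
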