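import Mathlib

open Finset

namespace Vale.Agent.P125

noncomputable def av {Ω : Type*} [Fintype Ω] (f : Ω → ℝ) : ℝ := (∑ ω, f ω) / Fintype.card Ω

open Classical in
noncomputable def pr {Ω : Type*} [Fintype Ω] (P : Ω → Prop) : ℝ :=
  av fun ω => if P ω then 1 else 0

section
variable {Ω : Type*} [Fintype Ω]

lemma av_mono {f g : Ω → ℝ} (h : ∀ ω, f ω ≤ g ω) : av f ≤ av g :=
  div_le_div_of_nonneg_right (Finset.sum_le_sum fun ω _ => h ω) (Nat.cast_nonneg _)

lemma av_nonneg {f : Ω → ℝ} (h : ∀ ω, 0 ≤ f ω) : 0 ≤ av f :=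
  div_nonneg (Finset.sum_nonneg fun ω _ => h ω) (Nat.cast_nonneg _)

lemma av_add (f g : Ω → ℝ) : av (fun ω => f ω + g ω) = av f + av g := by
  unfold av; rw [Finset.sum_add_distrib, add_div]

lemma av_sub (f g : Ω → ℝ) : av (fun ω => f ω - g ω) = av f - av g := by
  unfold av; rw [Finset.sum_sub_distrib, sub_div]

lemma av_mul (c : ℝ) (f : Ω → ℝ) : av (fun ω => c * f ω) = c * av f := by
  unfold av; rw [← Finset.mul_sum, mul_div_assoc]

lemma av_const [Nonempty Ω] (c : ℝ) : av (fun _ : Ω => c) = c := by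
  unfold av
  have : (Fintype.card Ω : ℝ) ≠ 0 := by exact_mod_cast Fintype.card_ne_zero
  simp

lemma av_sum {ι : Type*} (s : Finset ι) (f : ι → Ω → ℝ) :
    av (fun ω => ∑ i ∈ s, f i ω) = ∑ i ∈ s, av (f i) := by
  unfold av; rw [Finset.sum_comm, Finset.sum_div]

lemma av_equiv {Ω' : Type*} [Fintype Ω'] (e : Ω ≃ Ω') (f : Ω' → ℝ) :
    av (fun ω => f (e ω)) = av f := by
  unfold av; rw [Equiv.sum_comp e f, Fintype.card_congr e]

lemma av_prod {α β : Type*} [Fintype α] [Fintype β] (f : α × β → ℝ) :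
    av f = av fun a => av fun b => f (a, b) := by
  unfold av
  rw [Fintype.sum_prod_type, Fintype.card_prod, ← Finset.sum_div, div_div]
  push_cast; rw [mul_comm]

lemma av_prod' {α β : Type*} [Fintype α] [Fintype β] (f : α × β → ℝ) :
    av f = av fun b => av fun a => f (a, b) := by
  unfold av
  rw [Fintype.sum_prod_type_right, Fintype.card_prod, ← Finset.sum_div, div_div]
  push_cast; rfl

lemma av_fst {α β : Type*} [Fintype α] [Fintype β] [Nonempty β] (f : α → ℝ) :
    av (fun x : α × β => f x.1) = av f := by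
  rw [av_prod]; simp only [av_const]

lemma av_snd {α β : Type*} [Fintype α] [Fintype β] [Nonempty α] (f : β → ℝ) :
    av (fun x : α × β => f x.2) = av f := by
  rw [av_prod']; simp only [av_const]

lemma av_eval {ι α : Type*} [Fintype ι] [DecidableEq ι] [Fintype α] [Nonempty α] (i : ι)
    (f : α → ℝ) : av (fun b : ι → α => f (b i)) = av f := by
  rw [← av_fst (β := {j // j ≠ i} → α) f,
    ← av_equiv (Equiv.piSplitAt i fun _ => α) fun x => f x.1]
  rfl

lemma pr_mono {P Q : Ω → Prop} (h : ∀ ω, P ω → Q ω) : pr P ≤ pr Q :=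
  av_mono fun ω => by
    by_cases hp : P ω
    · simp [hp, h ω hp]
    · simp only [hp, if_false]; split_ifs <;> norm_num

lemma pr_nonneg (P : Ω → Prop) : 0 ≤ pr P := av_nonneg fun ω => by split_ifs <;> norm_num

lemma pr_or (P Q : Ω → Prop) : pr (fun ω => P ω ∨ Q ω) ≤ pr P + pr Q := by
  unfold pr
  rw [← av_add]
  exact av_mono fun ω => by
    by_cases hp : P ω <;> by_cases hq : Q ω <;> simp [hp, hq]

lemma pr_exists {ι : Type*} (s : Finset ι) (Q : ι → Ω → Prop) :
    pr (fun ω => ∃ i ∈ s, Q i ω) ≤ ∑ i ∈ s, pr (Q i) := by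
  unfold pr
  rw [← av_sum]
  refine av_mono fun ω => ?_
  have hnn : ∀ i ∈ s, (0 : ℝ) ≤ @ite ℝ (Q i ω) (Classical.propDecidable _) 1 0 :=
    fun i _ => by split_ifs <;> norm_num
  split_ifs with h
  · obtain ⟨i, hi, hq⟩ := h
    have := Finset.single_le_sum hnn hi
    simpa [hq] using this
  · exact Finset.sum_nonneg hnn

lemma pr_equiv {Ω' : Type*} [Fintype Ω'] (e : Ω ≃ Ω') (P : Ω' → Prop) :
    pr (fun ω => P (e ω)) = pr P := by
  unfold pr
  exact av_equiv e fun ω => @ite ℝ (P ω) (Classical.propDecidable _) 1 0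

lemma pr_fst {α β : Type*} [Fintype α] [Fintype β] [Nonempty β] (P : α → Prop) :
    pr (fun x : α × β => P x.1) = pr P := by
  unfold pr
  exact av_fst fun ω => @ite ℝ (P ω) (Classical.propDecidable _) 1 0

lemma pr_eval {ι α : Type*} [Fintype ι] [DecidableEq ι] [Fintype α] [Nonempty α] (i : ι)
    (P : α → Prop) : pr (fun b : ι → α => P (b i)) = pr P := by
  unfold pr
  exact av_eval i fun ω => @ite ℝ (P ω) (Classical.propDecidable _) 1 0

lemma pr_prod_le {α β : Type*} [Fintype α] [Fintype β] [Nonempty α] (P : α × β → Prop) {c : ℝ}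
    (h : ∀ a, pr (fun b => P (a, b)) ≤ c) : pr P ≤ c := by
  unfold pr
  rw [av_prod, ← av_const (Ω := α) c]
  exact av_mono h

lemma pr_prod_le' {α β : Type*} [Fintype α] [Fintype β] [Nonempty β] (P : α × β → Prop) {c : ℝ}
    (h : ∀ b, pr (fun a => P (a, b)) ≤ c) : pr P ≤ c := by
  unfold pr
  rw [av_prod', ← av_const (Ω := β) c]
  exact av_mono h

lemma pr_eq_card (P : Ω → Prop) [DecidablePred P] :
    pr P = (Finset.univ.filter P).card / Fintype.card Ω := by
  unfold pr av
  rw [Finset.card_filter]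
  push_cast
  congr 1
  exact Finset.sum_congr rfl fun ω _ => by congr

lemma pr_eq_single (a : Ω) : pr (fun x => x = a) = 1 / Fintype.card Ω := by
  classical
  unfold pr av
  simp

lemma pr_false {P : Ω → Prop} (h : ∀ ω, ¬ P ω) : pr P = 0 := by
  unfold pr av; simp [h]

/-- lower bound of an average from a likely event -/
lemma av_lower [Nonempty Ω] {f : Ω → ℝ} (hf : ∀ ω, 0 ≤ f ω) (P : Ω → Prop) {b : ℝ}
    (hP : ∀ ω, ¬ P ω → b ≤ f ω) : b * (1 - pr P) ≤ av f := by
  unfold pr
  rw [← av_const (Ω := Ω) 1, ← av_sub, ← av_mul]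
  refine av_mono fun ω => ?_
  by_cases h : P ω
  · simpa [h, av_const] using hf ω
  · simpa [h, av_const] using hP ω h

end

/-! ### approximately contractable increasing sequences -/

section
variable {Λ : Type} [Fintype Λ] [LinearOrder Λ] {B : ℕ}

abbrev BR (Λ : Type) (B : ℕ) := (Λ → Fin (B + 1)) × (Λ → Λ → Fin (B + 1))

def Gs (x : BR Λ B) (y : Λ) : Λ → Fin (B + 1) := fun l =>
  if y < l then x.1 l else if l = y then x.1 l + 1 else x.2 y l

def Th (α : Λ) (x : BR Λ B) : BR Λ B :=
  (Gs x α, Function.update x.2 α fun l => if l < α then x.1 l else x.2 α l)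

omit [Fintype Λ] in
lemma Th_inj (α : Λ) : Function.Injective (Th (B := B) α) := by
  rintro ⟨b, r⟩ ⟨b', r'⟩ h
  have h1 : Gs (b, r) α = Gs (b', r') α := congrArg Prod.fst h
  have h2 := congrArg Prod.snd h
  simp only [Th] at h2
  have h3 := congrFun h2 α
  simp only [Function.update_self] at h3
  have hb : b = b' := by
    funext l
    have a1 := congrFun h1 l
    have a2 := congrFun h3 l
    simp only [Gs] at a1
    rcases lt_trichotomy l α with hl | hl | hl
    · simpa [hl] using a2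
    · subst hl; simpa using a1
    · simpa [hl] using a1
  have hr : r = r' := by
    funext y
    by_cases hy : y = α
    · subst hy
      funext l
      have a1 := congrFun h1 l
      have a2 := congrFun h3 l
      simp only [Gs] at a1
      by_cases hl : l < y
      · simpa [not_lt.mpr hl.le, hl.ne] using a1
      · simpa [hl] using a2
    · have := congrFun h2 y
      simpa [Function.update_of_ne hy] using this
  rw [hb, hr]

noncomputable def ThE (α : Λ) : BR Λ B ≃ BR Λ B :=
  Equiv.ofBijective (Th α) (Finite.injective_iff_bijective.mp (Th_inj α))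

omit [Fintype Λ] in
lemma Gs_Th {α η : Λ} (h : α < η) (x : BR Λ B) : Gs (Th α x) η = Gs x η := by
  funext l
  simp only [Gs, Th, Function.update_of_ne h.ne']
  split_ifs with h1 h2 h3 h4 h5 h6 <;> first | rfl | skip
  all_goals first
    | exact absurd (h.trans h1) h2
    | (subst_vars; simp_all)

def toL (f : Λ → Fin (B + 1)) : Lex (Λᵒᵈ → Fin (B + 1)) := toLex fun l => f (OrderDual.ofDual l)

omit [Fintype Λ] in
lemma Gs_lt (x : BR Λ B) {y y' : Λ} (h : y < y') (hb : x.1 y' ≠ Fin.last B) :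
    toL (Gs x y) < toL (Gs x y') := by
  refine ⟨OrderDual.toDual y', fun l hl => ?_, ?_⟩
  · have hl' : y' < OrderDual.ofDual l := hl
    change Gs x y (OrderDual.ofDual l) = Gs x y' (OrderDual.ofDual l)
    simp [Gs, hl', h.trans hl']
  · change Gs x y y' < Gs x y' y'
    simp only [Gs, h, if_true, lt_irrefl, if_false]
    exact Fin.lt_add_one_iff.mpr (Fin.lt_last_iff_ne_last.mpr hb)

end

theorem contract (I : Type) [Fintype I] [LinearOrder I] (m : ℕ) : ∀ ε : ℝ, 0 < ε →
    ∃ (Ω : Type) (_ : Fintype Ω) (_ : Nonempty Ω) (Λ : Type) (_ : Fintype Λ) (_ : LinearOrder Λ)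
      (z : Ω → I → Λ), pr (fun ω => ¬ StrictMono (z ω)) ≤ ε ∧
      ∀ i i' : Fin m → I, StrictMono i → StrictMono i' →
        ∃ φ : Ω ≃ Ω, pr (fun ω => ∃ s, z (φ ω) (i' s) ≠ z ω (i s)) ≤ ε := by
  induction m with
  | zero =>
    intro ε hε
    refine ⟨Unit, inferInstance, inferInstance, I, inferInstance, inferInstance, fun _ i => i,
      ?_, fun i i' _ _ => ⟨Equiv.refl _, ?_⟩⟩
    · rw [pr_false fun _ h => h strictMono_id]; exact hε.le
    · rw [pr_false fun _ ⟨s, _⟩ => s.elim0]; exact hε.le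
  | succ m ih =>
    intro ε hε
    obtain ⟨Ω, _, _, Λ, _, _, y, h1, h2⟩ := ih (ε / 3) (by positivity)
    obtain ⟨B, hB⟩ := exists_nat_gt (Fintype.card I / (ε / 3))
    refine ⟨Ω × BR Λ B, inferInstance, inferInstance, Lex (Λᵒᵈ → Fin (B + 1)), inferInstance,
      inferInstance, fun x i => toL (Gs x.2 (y x.1 i)), ?_,
      fun i i' hi hi' => ?_⟩
    · have a1 : pr (fun x : Ω × BR Λ B => ∃ i ∈ (Finset.univ : Finset I),
          x.2.1 (y x.1 i) = Fin.last B) ≤ ε / 3 := by
        refine (pr_exists _ _).trans ?_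
        have : ∀ i : I, pr (fun x : Ω × BR Λ B => x.2.1 (y x.1 i) = Fin.last B)
            ≤ 1 / (B + 1) := fun i => pr_prod_le _ fun ω => by
          have e1 := pr_fst (β := Λ → Λ → Fin (B + 1))
            fun b : Λ → Fin (B + 1) => b (y ω i) = Fin.last B
          have e2 := pr_eval (y ω i) fun v : Fin (B + 1) => v = Fin.last B
          rw [pr_eq_single] at e2
          simp only [Fintype.card_fin] at e2
          push_cast at e2
          exact le_of_eq (e1.trans e2)
        refine (Finset.sum_le_sum fun i _ => this i).trans ?_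
        rw [Finset.sum_const, Finset.card_univ, nsmul_eq_mul, mul_one_div,
          div_le_iff₀ (by positivity)]
        rw [div_lt_iff₀ (by positivity)] at hB
        nlinarith
      have a2 := pr_fst (β := BR Λ B) fun ω => ¬ StrictMono (y ω)
      refine le_trans (pr_mono (Q := fun x : Ω × BR Λ B => ¬ StrictMono (y x.1) ∨
        ∃ i ∈ (Finset.univ : Finset I), x.2.1 (y x.1 i) = Fin.last B) fun x hx => ?_)
        ((pr_or _ _).trans (by linarith))
      by_contra hc
      push Not at hc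
      exact hx fun a b hab => Gs_lt x.2 (hc.1 hab) (hc.2 b (Finset.mem_univ b))
    · obtain ⟨φ, hφ⟩ := h2 (fun s => i s.succ) (fun s => i' s.succ)
        (hi.comp Fin.strictMono_succ) (hi'.comp Fin.strictMono_succ)
      refine ⟨Equiv.prodShear φ fun ω => (ThE (y ω (i 0))).trans (ThE (y (φ ω) (i' 0))).symm, ?_⟩
      have a1 := pr_equiv φ fun ω => ¬ StrictMono (y ω)
      have a2 := pr_fst (β := BR Λ B) fun ω => (¬ StrictMono (y ω) ∨ ¬ StrictMono (y (φ ω))) ∨
        ∃ s : Fin m, y (φ ω) (i' s.succ) ≠ y ω (i s.succ)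
      have a3 := pr_or (fun ω => ¬ StrictMono (y ω) ∨ ¬ StrictMono (y (φ ω)))
        fun ω => ∃ s : Fin m, y (φ ω) (i' s.succ) ≠ y ω (i s.succ)
      have a4 := pr_or (fun ω => ¬ StrictMono (y ω)) fun ω => ¬ StrictMono (y (φ ω))
      refine le_trans (pr_mono fun x hx => ?_) (a2.le.trans (by linarith))
      by_contra hc
      push Not at hc
      obtain ⟨⟨m1, m2⟩, m3⟩ := hc
      obtain ⟨s, hs⟩ := hx
      apply hs
      obtain ⟨ω, x⟩ := x
      simp only [Equiv.prodShear_apply, Equiv.trans_apply]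
      congr 1
      set x' := (ThE (B := B) (y (φ ω) (i' 0))).symm (ThE (y ω (i 0)) x) with hx'
      have key : Th (y (φ ω) (i' 0)) x' = Th (y ω (i 0)) x :=
        (ThE (B := B) (y (φ ω) (i' 0))).apply_symm_apply (ThE (y ω (i 0)) x)
      refine Fin.cases ?_ (fun s => ?_) s
      · exact congrArg Prod.fst key
      · have b1 : y ω (i 0) < y ω (i s.succ) := m1 (hi (Fin.succ_pos s))
        have b2 : y (φ ω) (i' 0) < y (φ ω) (i' s.succ) := m2 (hi' (Fin.succ_pos s))
        have b3 : y (φ ω) (i' s.succ) = y ω (i s.succ) := m3 s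
        rw [← Gs_Th b2 x', key, b3, Gs_Th b1 x]

end Vale.Agent.P125
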